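import Mathlib

namespace Vale.Agent.Results.P034.RatioLowerBound

open Finset

section Defs

variable {X : Type} [Fintype X] [DecidableEq X]

/-- The cost at `p` of a family `G` of subsets of `X`: the sum of `p ^ |S|` over `S` in `G`
(with `p ^ 0 = 1`). -/
def cost (G : Finset (Finset X)) (p : ℝ) : ℝ := ∑ S ∈ G, p ^ S.card

/-- `G` covers `F`: every member of `F` contains some member of `G`. -/
def Covers (G F : Finset (Finset X)) : Prop := ∀ H ∈ F, ∃ S ∈ G, S ⊆ H

/-- `F` is `p`-small: some cover of `F` has cost at most `1/2` at `p`. -/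
def Small (F : Finset (Finset X)) (p : ℝ) : Prop :=
  ∃ G : Finset (Finset X), Covers G F ∧ cost G p ≤ 1 / 2

/-- `g` is a fractional cover of `F`: it takes values in `[0,1]` and for every `H` in `F`
the values of `g` on the subsets of `H` sum to at least `1`. -/
def IsFracCover (g : Finset X → ℝ) (F : Finset (Finset X)) : Prop :=
  (∀ S, 0 ≤ g S ∧ g S ≤ 1) ∧ ∀ H ∈ F, 1 ≤ ∑ S ∈ H.powerset, g S

/-- The cost at `p` of a fractional cover `g`. -/
def fracCost (g : Finset X → ℝ) (p : ℝ) : ℝ := ∑ S : Finset X, g S * p ^ S.card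

/-- `F` is fractionally `p`-small: some fractional cover of `F` has cost at most `1/2` at `p`. -/
def FracSmall (F : Finset (Finset X)) (p : ℝ) : Prop :=
  ∃ g : Finset X → ℝ, IsFracCover g F ∧ fracCost g p ≤ 1 / 2

/-- The (integral) expectation threshold `q(F)`. -/
noncomputable def q (F : Finset (Finset X)) : ℝ :=
  sSup {p : ℝ | 0 ≤ p ∧ p ≤ 1 ∧ Small F p}

/-- The fractional expectation threshold `q_f(F)`. -/
noncomputable def qf (F : Finset (Finset X)) : ℝ :=
  sSup {p : ℝ | 0 ≤ p ∧ p ≤ 1 ∧ FracSmall F p}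

/-- `F` is a nonempty proper increasing family of subsets of `X`. -/
def IsProperIncreasing (F : Finset (Finset X)) : Prop :=
  F.Nonempty ∧ ∅ ∉ F ∧ ∀ A ∈ F, ∀ B : Finset X, A ⊆ B → B ∈ F

end Defs

section Construction

variable (Z W : Type) [Fintype Z] [Fintype W] [DecidableEq Z] [DecidableEq W]

/-- The family of all subsets of `Z ⊕ W` containing at least two points of `Z` and at least
one point of `W`. -/
def fam : Finset (Finset (Z ⊕ W)) :=
  Finset.univ.filter (fun H => 2 ≤ H.toLeft.card ∧ 1 ≤ H.toRight.card)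

variable {Z W}

lemma mem_fam {H : Finset (Z ⊕ W)} :
    H ∈ fam Z W ↔ 2 ≤ H.toLeft.card ∧ 1 ≤ H.toRight.card := by
  simp [fam]

lemma fam_proper (hZ : 2 ≤ Fintype.card Z) (hW : 1 ≤ Fintype.card W) :
    IsProperIncreasing (fam Z W) := by
  refine ⟨⟨Finset.univ, ?_⟩, ?_, ?_⟩
  · rw [mem_fam]
    have h1 : (Finset.univ : Finset (Z ⊕ W)).toLeft = Finset.univ := by ext x; simp
    have h2 : (Finset.univ : Finset (Z ⊕ W)).toRight = Finset.univ := by ext x; simp
    rw [h1, h2, Finset.card_univ, Finset.card_univ]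
    exact ⟨hZ, hW⟩
  · rw [mem_fam]
    intro h
    have : (∅ : Finset (Z ⊕ W)).toRight = ∅ := by ext x; simp
    rw [this] at h
    simp at h
  · intro A hA B hAB
    rw [mem_fam] at hA ⊢
    exact ⟨hA.1.trans (Finset.card_le_card (Finset.toLeft_subset_toLeft hAB)),
      hA.2.trans (Finset.card_le_card (Finset.toRight_subset_toRight hAB))⟩

/-- The fractional cover: weight `1/2` on every set consisting of one point of `Z` and one
point of `W`. -/
noncomputable def gHalf (S : Finset (Z ⊕ W)) : ℝ :=
  if S.toLeft.card = 1 ∧ S.toRight.card = 1 then 1 / 2 else 0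

lemma gHalf_isFracCover : IsFracCover (gHalf (Z := Z) (W := W)) (fam Z W) := by
  refine ⟨fun S => ?_, fun H hH => ?_⟩
  · unfold gHalf
    split_ifs <;> norm_num
  · rw [mem_fam] at hH
    obtain ⟨hL, hR⟩ := hH
    obtain ⟨i, j, hi, hj, hij⟩ := Finset.one_lt_card_iff.mp (by omega : 1 < H.toLeft.card)
    obtain ⟨x, hx⟩ := Finset.card_pos.mp (by omega : 0 < H.toRight.card)
    rw [Finset.mem_toLeft] at hi hj
    rw [Finset.mem_toRight] at hx
    have hS1 : ({Sum.inl i, Sum.inr x} : Finset (Z ⊕ W)) ∈ H.powerset := by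
      rw [Finset.mem_powerset]
      intro y hy
      simp only [Finset.mem_insert, Finset.mem_singleton] at hy
      rcases hy with rfl | rfl <;> assumption
    have hS2 : ({Sum.inl j, Sum.inr x} : Finset (Z ⊕ W)) ∈ H.powerset := by
      rw [Finset.mem_powerset]
      intro y hy
      simp only [Finset.mem_insert, Finset.mem_singleton] at hy
      rcases hy with rfl | rfl <;> assumption
    have hne : ({Sum.inl i, Sum.inr x} : Finset (Z ⊕ W)) ≠ {Sum.inl j, Sum.inr x} := by
      intro h
      have : (Sum.inl i : Z ⊕ W) ∈ ({Sum.inl j, Sum.inr x} : Finset (Z ⊕ W)) := by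
        rw [← h]; simp
      simp only [Finset.mem_insert, Finset.mem_singleton] at this
      rcases this with h1 | h1
      · exact hij (Sum.inl.inj h1)
      · exact absurd h1 (by simp)
    have hg : ∀ k : Z, gHalf ({Sum.inl k, Sum.inr x} : Finset (Z ⊕ W)) = 1 / 2 := by
      intro k
      have h1 : ({Sum.inl k, Sum.inr x} : Finset (Z ⊕ W)).toLeft = {k} := by
        ext y; simp
      have h2 : ({Sum.inl k, Sum.inr x} : Finset (Z ⊕ W)).toRight = {x} := by
        ext y; simp
      unfold gHalf
      rw [h1, h2]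
      simp
    have hsub : ({({Sum.inl i, Sum.inr x} : Finset (Z ⊕ W)), {Sum.inl j, Sum.inr x}} :
        Finset (Finset (Z ⊕ W))) ⊆ H.powerset := by
      intro T hT
      simp only [Finset.mem_insert, Finset.mem_singleton] at hT
      rcases hT with rfl | rfl <;> assumption
    calc (1 : ℝ) = gHalf ({Sum.inl i, Sum.inr x} : Finset (Z ⊕ W))
          + gHalf ({Sum.inl j, Sum.inr x} : Finset (Z ⊕ W)) := by rw [hg, hg]; norm_num
      _ = ∑ S ∈ ({({Sum.inl i, Sum.inr x} : Finset (Z ⊕ W)), {Sum.inl j, Sum.inr x}} :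
        Finset (Finset (Z ⊕ W))), gHalf S := by
          rw [Finset.sum_pair hne]
      _ ≤ ∑ S ∈ H.powerset, gHalf S := by
          apply Finset.sum_le_sum_of_subset_of_nonneg hsub
          intro S _ _
          unfold gHalf
          split_ifs <;> norm_num

lemma gHalf_cost (p : ℝ) :
    fracCost (gHalf (Z := Z) (W := W)) p
      ≤ (Fintype.card Z : ℝ) * (Fintype.card W : ℝ) * p ^ 2 / 2 := by
  unfold fracCost
  set D : Finset (Finset (Z ⊕ W)) :=
    Finset.univ.filter (fun S => S.toLeft.card = 1 ∧ S.toRight.card = 1) with hD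
  have h1 : ∑ S : Finset (Z ⊕ W), gHalf S * p ^ S.card = ∑ S ∈ D, (1 / 2 : ℝ) * p ^ 2 := by
    rw [hD, Finset.sum_filter]
    apply Finset.sum_congr rfl
    intro S _
    unfold gHalf
    split_ifs with h
    · have : S.card = 2 := by
        rw [← Finset.card_toLeft_add_card_toRight, h.1, h.2]
      rw [this]
    · simp
  rw [h1, Finset.sum_const, nsmul_eq_mul]
  have hcard : D.card ≤ Fintype.card Z * Fintype.card W := by
    have hinj : Set.InjOn (fun S : Finset (Z ⊕ W) => (S.toLeft, S.toRight)) (D : Set _) := by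
      intro S _ T _ hST
      simp only [Prod.mk.injEq] at hST
      rw [← Finset.toLeft_disjSum_toRight (u := S), ← Finset.toLeft_disjSum_toRight (u := T),
        hST.1, hST.2]
    have hmaps : ∀ S ∈ D, (fun S : Finset (Z ⊕ W) => (S.toLeft, S.toRight)) S ∈
        (Finset.powersetCard 1 (Finset.univ : Finset Z)) ×ˢ
          (Finset.powersetCard 1 (Finset.univ : Finset W)) := by
      intro S hS
      rw [hD, Finset.mem_filter] at hS
      simp only [Finset.mem_product, Finset.mem_powersetCard, Finset.subset_univ, true_and]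
      exact hS.2
    have := Finset.card_le_card_of_injOn _ hmaps hinj
    rw [Finset.card_product, Finset.card_powersetCard, Finset.card_powersetCard,
      Finset.card_univ, Finset.card_univ, Nat.choose_one_right, Nat.choose_one_right] at this
    exact this
  have hcard' : (D.card : ℝ) ≤ (Fintype.card Z : ℝ) * (Fintype.card W : ℝ) := by
    exact_mod_cast hcard
  have hp2 : 0 ≤ p ^ 2 := by positivity
  nlinarith [mul_le_mul_of_nonneg_right hcard' hp2]

/-- Any family of subsets of `Z` that covers all pairs has cost at least one, under a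
numerical hypothesis on `p`. -/
lemma pair_cover_cost (T : Finset (Finset Z))
    (hcov : ∀ i j : Z, i ≠ j → ∃ S ∈ T, S ⊆ {i, j}) (p : ℝ) (hp0 : 0 ≤ p)
    (hnum : ∀ m : ℕ, m ≤ Fintype.card Z →
      1 ≤ ((Fintype.card Z : ℝ) - m) * p + (m.choose 2 : ℝ) * p ^ 2) :
    1 ≤ ∑ S ∈ T, p ^ S.card := by
  by_cases h0 : (∅ : Finset Z) ∈ T
  · have := Finset.single_le_sum (f := fun S : Finset Z => p ^ S.card)
      (fun S _ => pow_nonneg hp0 _) h0
    simpa using this
  · set A : Finset Z := Finset.univ.filter (fun i => ({i} : Finset Z) ∈ T) with hA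
    have hpairs : ∀ P ∈ Finset.powersetCard 2 Aᶜ, P ∈ T := by
      intro P hP
      rw [Finset.mem_powersetCard] at hP
      obtain ⟨hPsub, hPcard⟩ := hP
      obtain ⟨i, j, hij, rfl⟩ := Finset.card_eq_two.mp hPcard
      have hi : i ∉ A := by
        have := hPsub (Finset.mem_insert_self i {j})
        exact Finset.mem_compl.mp this
      have hj : j ∉ A := by
        have := hPsub (Finset.mem_insert_of_mem (Finset.mem_singleton_self j))
        exact Finset.mem_compl.mp this
      obtain ⟨S, hS, hSsub⟩ := hcov i j hij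
      have hi' : ({i} : Finset Z) ∉ T := by
        intro h; exact hi (by rw [hA]; simp [h])
      have hj' : ({j} : Finset Z) ∉ T := by
        intro h; exact hj (by rw [hA]; simp [h])
      have hcases : S = ∅ ∨ S = {i} ∨ S = {j} ∨ S = {i, j} := by
        have : (S : Set Z) ⊆ {i, j} := by
          intro y hy
          have := hSsub hy
          simpa using this
        rcases Set.subset_pair_iff_eq.mp this with h | h | h | h
        · left; exact_mod_cast h
        · right; left; ext y; simpa using Set.ext_iff.mp h y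
        · right; right; left; ext y; simpa using Set.ext_iff.mp h y
        · right; right; right; ext y; simpa using Set.ext_iff.mp h y
      rcases hcases with h | h | h | h
      · exact absurd (h ▸ hS) h0
      · exact absurd (h ▸ hS) hi'
      · exact absurd (h ▸ hS) hj'
      · exact h ▸ hS
    have hsing : ∀ P ∈ A.image (fun i => ({i} : Finset Z)), P ∈ T := by
      intro P hP
      rw [Finset.mem_image] at hP
      obtain ⟨i, hi, rfl⟩ := hP
      rw [hA, Finset.mem_filter] at hi
      exact hi.2
    have hdisj : Disjoint (A.image (fun i => ({i} : Finset Z))) (Finset.powersetCard 2 Aᶜ) := by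
      rw [Finset.disjoint_left]
      intro P hP hP2
      rw [Finset.mem_image] at hP
      obtain ⟨i, _, rfl⟩ := hP
      rw [Finset.mem_powersetCard] at hP2
      simp at hP2
    have hsub : (A.image (fun i => ({i} : Finset Z))) ∪ (Finset.powersetCard 2 Aᶜ) ⊆ T := by
      intro P hP
      rcases Finset.mem_union.mp hP with h | h
      · exact hsing P h
      · exact hpairs P h
    have hsum1 : ∑ S ∈ A.image (fun i => ({i} : Finset Z)), p ^ S.card = (A.card : ℝ) * p := by
      rw [Finset.sum_image]
      · simp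
      · intro i _ j _ hij
        exact Finset.singleton_injective hij
    have hsum2 : ∑ S ∈ Finset.powersetCard 2 Aᶜ, p ^ S.card
        = ((Aᶜ.card).choose 2 : ℝ) * p ^ 2 := by
      rw [Finset.sum_congr rfl (fun S hS => by rw [(Finset.mem_powersetCard.mp hS).2]),
        Finset.sum_const, Finset.card_powersetCard, nsmul_eq_mul]
    have hle : Aᶜ.card ≤ Fintype.card Z := Finset.card_le_univ _
    have hAcard : (A.card : ℝ) = (Fintype.card Z : ℝ) - (Aᶜ.card : ℝ) := by
      have := Finset.card_add_card_compl A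
      have h2 : ((A.card + Aᶜ.card : ℕ) : ℝ) = (Fintype.card Z : ℝ) := by exact_mod_cast this
      push_cast at h2
      linarith
    calc (1 : ℝ) ≤ ((Fintype.card Z : ℝ) - (Aᶜ.card : ℕ)) * p + ((Aᶜ.card).choose 2 : ℝ) * p ^ 2 :=
          hnum _ hle
      _ = ∑ S ∈ (A.image (fun i => ({i} : Finset Z))) ∪ (Finset.powersetCard 2 Aᶜ), p ^ S.card := by
          rw [Finset.sum_union hdisj, hsum1, hsum2, hAcard]
      _ ≤ ∑ S ∈ T, p ^ S.card :=
          Finset.sum_le_sum_of_subset_of_nonneg hsub (fun S _ _ => pow_nonneg hp0 _)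

/-- Lower bound on the cost of any cover of `fam Z W`. -/
lemma cover_cost_lower (G : Finset (Finset (Z ⊕ W))) (hG : Covers G (fam Z W)) (p : ℝ)
    (hp0 : 0 ≤ p) (hW : 0 < Fintype.card W)
    (hnum : ∀ m : ℕ, m ≤ Fintype.card Z →
      1 ≤ ((Fintype.card Z : ℝ) - m) * p + (m.choose 2 : ℝ) * p ^ 2) :
    (Fintype.card W : ℝ) * min p (1 / (Fintype.card W : ℝ)) ≤ cost G p := by
  set y : ℝ := min p (1 / (Fintype.card W : ℝ)) with hy
  have hWpos : (0 : ℝ) < (Fintype.card W : ℝ) := by exact_mod_cast hW
  have hy0 : 0 ≤ y := le_min hp0 (by positivity)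
  have hyp : y ≤ p := min_le_left _ _
  have hyW : (Fintype.card W : ℝ) * y ≤ 1 := by
    have : y ≤ 1 / (Fintype.card W : ℝ) := min_le_right _ _
    calc (Fintype.card W : ℝ) * y ≤ (Fintype.card W : ℝ) * (1 / (Fintype.card W : ℝ)) :=
          mul_le_mul_of_nonneg_left this hWpos.le
      _ = 1 := by field_simp
  -- step (a): for each x the sets of the cover lying over x have left-cost at least one
  have hA : ∀ x : W, 1 ≤ ∑ S ∈ G.filter (fun S => S.toRight ⊆ {x}), p ^ S.toLeft.card := by
    intro x
    have hcov : ∀ i j : Z, i ≠ j →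
        ∃ T ∈ (G.filter (fun S => S.toRight ⊆ {x})).image Finset.toLeft, T ⊆ {i, j} := by
      intro i j hij
      have hH : ({Sum.inl i, Sum.inl j, Sum.inr x} : Finset (Z ⊕ W)) ∈ fam Z W := by
        rw [mem_fam]
        have h1 : ({Sum.inl i, Sum.inl j, Sum.inr x} : Finset (Z ⊕ W)).toLeft = {i, j} := by
          ext y; simp
        have h2 : ({Sum.inl i, Sum.inl j, Sum.inr x} : Finset (Z ⊕ W)).toRight = {x} := by
          ext y; simp
        rw [h1, h2, Finset.card_pair hij]
        simp
      obtain ⟨S, hS, hSsub⟩ := hG _ hH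
      refine ⟨S.toLeft, ?_, ?_⟩
      · rw [Finset.mem_image]
        refine ⟨S, ?_, rfl⟩
        rw [Finset.mem_filter]
        refine ⟨hS, ?_⟩
        intro b hb
        rw [Finset.mem_toRight] at hb
        have := hSsub hb
        simpa using this
      · intro a ha
        rw [Finset.mem_toLeft] at ha
        have := hSsub ha
        simpa using this
    have h1 := pair_cover_cost _ hcov p hp0 hnum
    have h2 := Finset.sum_image_le_of_nonneg (s := G.filter (fun S => S.toRight ⊆ {x}))
      (g := Finset.toLeft) (f := fun T : Finset Z => p ^ T.card)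
      (fun T _ => pow_nonneg hp0 _)
    exact h1.trans h2
  -- step (c): termwise bound
  have hC : ∀ S : Finset (Z ⊕ W),
      ∑ x : W, (if S.toRight ⊆ {x} then y * p ^ S.toLeft.card else 0) ≤ p ^ S.card := by
    intro S
    have hcard : S.card = S.toLeft.card + S.toRight.card :=
      (Finset.card_toLeft_add_card_toRight).symm
    have hpl : 0 ≤ p ^ S.toLeft.card := pow_nonneg hp0 _
    rcases Nat.lt_or_ge S.toRight.card 1 with h0 | h1
    · -- no point of W
      have hempty : S.toRight = ∅ := Finset.card_eq_zero.mp (by omega)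
      rw [hcard, hempty]
      simp only [Finset.empty_subset, if_true, Finset.sum_const, Finset.card_univ,
        nsmul_eq_mul, Finset.card_empty, add_zero]
      calc (Fintype.card W : ℝ) * (y * p ^ S.toLeft.card)
          = ((Fintype.card W : ℝ) * y) * p ^ S.toLeft.card := by ring
        _ ≤ 1 * p ^ S.toLeft.card := mul_le_mul_of_nonneg_right hyW hpl
        _ = p ^ S.toLeft.card := one_mul _
    · rcases Nat.lt_or_ge S.toRight.card 2 with h2 | h2
      · -- exactly one point of W
        obtain ⟨x0, hx0⟩ := Finset.card_eq_one.mp (by omega : S.toRight.card = 1)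
        rw [hcard, hx0]
        simp only [Finset.singleton_subset_iff, Finset.mem_singleton, Finset.card_singleton]
        rw [Finset.sum_ite_eq Finset.univ x0 (fun _ => y * p ^ S.toLeft.card)]
        simp only [Finset.mem_univ, if_true]
        calc y * p ^ S.toLeft.card ≤ p * p ^ S.toLeft.card :=
              mul_le_mul_of_nonneg_right hyp hpl
          _ = p ^ (S.toLeft.card + 1) := by ring
      · -- at least two points of W: no term
        have hzero : ∀ x : W, ¬ S.toRight ⊆ {x} := by
          intro x hsub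
          have := Finset.card_le_card hsub
          simp at this
          omega
        simp only [hzero, if_false, Finset.sum_const_zero]
        exact pow_nonneg hp0 _
  -- assemble
  unfold cost
  calc (Fintype.card W : ℝ) * y = ∑ _x : W, y * 1 := by
        simp [Finset.sum_const, Finset.card_univ]
    _ ≤ ∑ x : W, y * ∑ S ∈ G.filter (fun S => S.toRight ⊆ {x}), p ^ S.toLeft.card :=
        Finset.sum_le_sum (fun x _ => mul_le_mul_of_nonneg_left (hA x) hy0)
    _ = ∑ x : W, ∑ S ∈ G, (if S.toRight ⊆ {x} then y * p ^ S.toLeft.card else 0) := by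
        apply Finset.sum_congr rfl
        intro x _
        rw [Finset.mul_sum, Finset.sum_filter]
    _ = ∑ S ∈ G, ∑ x : W, (if S.toRight ⊆ {x} then y * p ^ S.toLeft.card else 0) :=
        Finset.sum_comm
    _ ≤ ∑ S ∈ G, p ^ S.card := Finset.sum_le_sum (fun S _ => hC S)

/-- If the numerical hypothesis holds at `1/(2w)`, the family is not `p`-small for any
`p > 1/(2w)`. -/
lemma small_le (hW : 0 < Fintype.card W)
    (hnum : ∀ m : ℕ, m ≤ Fintype.card Z →
      1 ≤ ((Fintype.card Z : ℝ) - m) * (1 / (2 * (Fintype.card W : ℝ)))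
        + (m.choose 2 : ℝ) * (1 / (2 * (Fintype.card W : ℝ))) ^ 2)
    (p : ℝ) (hp : Small (fam Z W) p) : p ≤ 1 / (2 * (Fintype.card W : ℝ)) := by
  by_contra hlt
  rw [not_le] at hlt
  obtain ⟨G, hG, hcost⟩ := hp
  have hWpos : (0 : ℝ) < (Fintype.card W : ℝ) := by exact_mod_cast hW
  have hp'0 : (0 : ℝ) < 1 / (2 * (Fintype.card W : ℝ)) := by positivity
  have hp0 : 0 ≤ p := hp'0.le.trans hlt.le
  have hnum' : ∀ m : ℕ, m ≤ Fintype.card Z →
      1 ≤ ((Fintype.card Z : ℝ) - m) * p + (m.choose 2 : ℝ) * p ^ 2 := by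
    intro m hm
    have h1 := hnum m hm
    have hm' : (0 : ℝ) ≤ (Fintype.card Z : ℝ) - m := by
      have : (m : ℝ) ≤ (Fintype.card Z : ℝ) := by exact_mod_cast hm
      linarith
    have h2 : ((Fintype.card Z : ℝ) - m) * (1 / (2 * (Fintype.card W : ℝ)))
        ≤ ((Fintype.card Z : ℝ) - m) * p := mul_le_mul_of_nonneg_left hlt.le hm'
    have h3 : (1 / (2 * (Fintype.card W : ℝ))) ^ 2 ≤ p ^ 2 :=
      pow_le_pow_left₀ hp'0.le hlt.le 2
    have h4 : (m.choose 2 : ℝ) * (1 / (2 * (Fintype.card W : ℝ))) ^ 2
        ≤ (m.choose 2 : ℝ) * p ^ 2 := mul_le_mul_of_nonneg_left h3 (by positivity)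
    linarith
  have hlow := cover_cost_lower G hG p hp0 hW hnum'
  have hmin : 1 / 2 < (Fintype.card W : ℝ) * min p (1 / (Fintype.card W : ℝ)) := by
    rcases le_total p (1 / (Fintype.card W : ℝ)) with h | h
    · rw [min_eq_left h]
      have : (Fintype.card W : ℝ) * (1 / (2 * (Fintype.card W : ℝ))) = 1 / 2 := by
        field_simp
      rw [← this]
      exact mul_lt_mul_of_pos_left hlt hWpos
    · rw [min_eq_right h]
      have : (Fintype.card W : ℝ) * (1 / (Fintype.card W : ℝ)) = 1 := by field_simp
      rw [this]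
      norm_num
  linarith

end Construction

/-- There is a nonempty proper increasing family `F` of subsets of an `802`-point set whose
fractional expectation threshold exceeds `23/20` times its expectation threshold. -/
theorem result :
    ∃ F : Finset (Finset (Fin 602 ⊕ Fin 200)),
      IsProperIncreasing F ∧ (23 / 20 : ℝ) * q F < qf F := by
  refine ⟨fam (Fin 602) (Fin 200), fam_proper (by simp) (by simp), ?_⟩
  have hproper : IsProperIncreasing (fam (Fin 602) (Fin 200)) := fam_proper (by simp) (by simp)
  -- upper bound for q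
  have hq : q (fam (Fin 602) (Fin 200)) ≤ 1 / 400 := by
    unfold q
    apply csSup_le
    · refine ⟨0, le_refl _, by norm_num, fam (Fin 602) (Fin 200), fun H hH => ⟨H, hH, subset_rfl⟩, ?_⟩
      unfold cost
      have : ∀ S ∈ fam (Fin 602) (Fin 200), (0 : ℝ) ^ S.card = 0 := by
        intro S hS
        have hne : S ≠ ∅ := fun h => hproper.2.1 (h ▸ hS)
        have : S.card ≠ 0 := fun h => hne (Finset.card_eq_zero.mp h)
        exact zero_pow this
      rw [Finset.sum_congr rfl this]
      simp
    · rintro p ⟨_, _, hsmall⟩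
      have := small_le (Z := Fin 602) (W := Fin 200) (by simp) ?_ p hsmall
      · simpa using (by norm_num at this ⊢; exact this : p ≤ 1 / 400)
      · intro m hm
        simp only [Fintype.card_fin] at hm ⊢
        rw [Nat.cast_choose_two]
        have hm' : (m : ℝ) ≤ 602 := by exact_mod_cast hm
        norm_num
        nlinarith [sq_nonneg ((m : ℝ) - 801 / 2)]
  -- lower bound for qf
  have hqf : 1 / 347 ≤ qf (fam (Fin 602) (Fin 200)) := by
    unfold qf
    apply le_csSup
    · exact ⟨1, fun p hp => hp.2.1⟩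
    · refine ⟨by norm_num, by norm_num, gHalf, gHalf_isFracCover, ?_⟩
      have := gHalf_cost (Z := Fin 602) (W := Fin 200) (1 / 347)
      simp only [Fintype.card_fin] at this
      refine this.trans ?_
      norm_num
  calc (23 / 20 : ℝ) * q (fam (Fin 602) (Fin 200)) ≤ (23 / 20 : ℝ) * (1 / 400) :=
        mul_le_mul_of_nonneg_left hq (by norm_num)
    _ < 1 / 347 := by norm_num
    _ ≤ qf (fam (Fin 602) (Fin 200)) := hqf

end Vale.Agent.Results.P034.RatioLowerBound
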