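import Mathlib
import Vale.Agent.Results.P034.RatioLowerBound

namespace Vale.Agent.Results.P034.LaminarSupports

open Finset
open Vale.Agent.Results.P034.RatioLowerBound

section Aux

/-- For nonnegative terms, the sum over a union of an indexed family of finite sets is at most
the double sum. -/
lemma sum_biUnion_le' {ι κ : Type*} [DecidableEq κ] (s : Finset ι) (t : ι → Finset κ)
    (f : κ → ℝ) (hf : ∀ x, 0 ≤ f x) :
    ∑ x ∈ s.biUnion t, f x ≤ ∑ i ∈ s, ∑ x ∈ t i, f x := by
  classical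
  induction s using Finset.induction_on with
  | empty => simp
  | insert a s ha ih =>
    rw [Finset.biUnion_insert, Finset.sum_insert ha]
    have h := Finset.sum_union_inter (s₁ := t a) (s₂ := s.biUnion t) (f := f)
    have h2 : 0 ≤ ∑ x ∈ t a ∩ s.biUnion t, f x := Finset.sum_nonneg (fun x _ => hf x)
    linarith

lemma add_pow_ge (M a : ℝ) (hM : 0 ≤ M) (ha : 0 ≤ a) (k : ℕ) :
    M ^ (k + 1) + ((k : ℝ) + 1) * a * M ^ k ≤ (M + a) ^ (k + 1) := by
  induction k with
  | zero => simp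
  | succ k ih =>
    have h1 : (M + a) ^ (k + 1 + 1) = (M + a) * (M + a) ^ (k + 1) := by ring
    rw [h1]
    have h2 : (M + a) * (M ^ (k + 1) + ((k : ℝ) + 1) * a * M ^ k)
        ≤ (M + a) * (M + a) ^ (k + 1) :=
      mul_le_mul_of_nonneg_left ih (by linarith)
    have h3 : 0 ≤ ((k : ℝ) + 1) * (a * a * M ^ k) := by positivity
    have h4 : (M + a) * (M ^ (k + 1) + ((k : ℝ) + 1) * a * M ^ k)
        = M ^ (k + 1 + 1) + (((k : ℝ) + 1) + 1) * a * M ^ (k + 1)
          + ((k : ℝ) + 1) * (a * a * M ^ k) := by ring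
    push_cast
    linarith

/-- The elementary symmetric sum of degree `k` of nonnegative numbers is at most the `k`-th
power of their sum divided by `k!`. -/
lemma esymm_le {ι : Type*} [DecidableEq ι] (y : ι → ℝ) (C : Finset ι)
    (hy : ∀ i ∈ C, 0 ≤ y i) :
    ∀ k : ℕ, (k.factorial : ℝ) * ∑ J ∈ C.powersetCard k, ∏ i ∈ J, y i ≤ (∑ i ∈ C, y i) ^ k := by
  induction C using Finset.induction_on with
  | empty =>
    intro k
    cases k with
    | zero => simp
    | succ k =>
      rw [Finset.powersetCard_eq_empty.mpr (by simp)]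
      simp
  | insert a C ha ih =>
    intro k
    have hyC : ∀ i ∈ C, 0 ≤ y i := fun i hi => hy i (Finset.mem_insert_of_mem hi)
    have hya : 0 ≤ y a := hy a (Finset.mem_insert_self a C)
    have hM : 0 ≤ ∑ i ∈ C, y i := Finset.sum_nonneg hyC
    cases k with
    | zero => simp
    | succ k =>
      have hdisj : Disjoint (powersetCard (k + 1) C) (image (insert a) (powersetCard k C)) := by
        rw [Finset.disjoint_left]
        intro J hJ hJ'
        rw [Finset.mem_powersetCard] at hJ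
        obtain ⟨J', _, rfl⟩ := Finset.mem_image.mp hJ'
        exact ha (hJ.1 (Finset.mem_insert_self a J'))
      have hinj : ∀ J ∈ powersetCard k C, ∀ J' ∈ powersetCard k C,
          insert a J = insert a J' → J = J' := by
        intro J hJ J' hJ' h
        rw [Finset.mem_powersetCard] at hJ hJ'
        have h1 : a ∉ J := fun h' => ha (hJ.1 h')
        have h2 : a ∉ J' := fun h' => ha (hJ'.1 h')
        rw [← Finset.erase_insert h1, ← Finset.erase_insert h2, h]
      have hprod : ∀ J ∈ powersetCard k C, ∏ i ∈ insert a J, y i = y a * ∏ i ∈ J, y i := by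
        intro J hJ
        rw [Finset.mem_powersetCard] at hJ
        rw [Finset.prod_insert (fun h' => ha (hJ.1 h'))]
      rw [Finset.powersetCard_succ_insert ha, Finset.sum_union hdisj, Finset.sum_image hinj,
        Finset.sum_congr rfl hprod, ← Finset.mul_sum, Finset.sum_insert ha]
      have e1 := ih hyC (k + 1)
      have e2 := ih hyC k
      have e3 := add_pow_ge (∑ i ∈ C, y i) (y a) hM hya k
      have hf : ((k + 1).factorial : ℝ) = ((k : ℝ) + 1) * (k.factorial : ℝ) := by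
        rw [Nat.factorial_succ]; push_cast; ring
      have e4 : ((k : ℝ) + 1) * y a * ((k.factorial : ℝ) * ∑ J ∈ powersetCard k C, ∏ i ∈ J, y i)
          ≤ ((k : ℝ) + 1) * y a * (∑ i ∈ C, y i) ^ k :=
        mul_le_mul_of_nonneg_left e2 (by positivity)
      have e5 : (y a + ∑ i ∈ C, y i) ^ (k + 1) = (∑ i ∈ C, y i + y a) ^ (k + 1) := by ring
      rw [e5]
      rw [hf] at e1 ⊢
      nlinarith [e1, e4, e3]

lemma geom_third (N : ℕ) : ∑ j ∈ range N, (1 / 3 : ℝ) ^ (j + 1) ≤ 1 / 2 := by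
  have h : ∀ N : ℕ, ∑ j ∈ range N, (1 / 3 : ℝ) ^ (j + 1) = (1 - (1 / 3 : ℝ) ^ N) / 2 := by
    intro N
    induction N with
    | zero => simp
    | succ n ih => rw [Finset.sum_range_succ, ih]; ring
  rw [h]
  have : (0 : ℝ) ≤ (1 / 3 : ℝ) ^ N := by positivity
  linarith

lemma arith_geom (N : ℕ) : ∑ j ∈ range N, ((j : ℝ) + 1) * (1 / 2 : ℝ) ^ j ≤ 4 := by
  have h : ∀ N : ℕ, ∑ j ∈ range N, ((j : ℝ) + 1) * (1 / 2 : ℝ) ^ j
      = 4 - (2 * (N : ℝ) + 4) * (1 / 2 : ℝ) ^ N := by
    intro N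
    induction N with
    | zero => simp
    | succ n ih => rw [Finset.sum_range_succ, ih]; push_cast; ring
  rw [h]
  have : (0 : ℝ) ≤ (2 * (N : ℝ) + 4) * (1 / 2 : ℝ) ^ N := by positivity
  linarith

end Aux

section Index

open Classical in
/-- The dyadic class of a weight `w` in `(0,1]`: the least `n` with `(1/2)^(n+1) < w`. -/
noncomputable def cls (w : ℝ) : ℕ :=
  if h : ∃ n : ℕ, (1 / 2 : ℝ) ^ (n + 1) < w then Nat.find h else 0

lemma cls_spec (w : ℝ) (h0 : 0 < w) (h1 : w ≤ 1) :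
    (1 / 2 : ℝ) ^ (cls w + 1) < w ∧ w ≤ (1 / 2 : ℝ) ^ cls w := by
  classical
  have hex : ∃ n : ℕ, (1 / 2 : ℝ) ^ (n + 1) < w := by
    obtain ⟨n, hn⟩ := exists_pow_lt_of_lt_one h0 (by norm_num : (1 / 2 : ℝ) < 1)
    refine ⟨n, lt_of_le_of_lt ?_ hn⟩
    rw [pow_succ]
    have : (0 : ℝ) ≤ (1 / 2 : ℝ) ^ n := by positivity
    linarith
  have hc : cls w = Nat.find hex := by
    unfold cls
    rw [dif_pos hex]
  rw [hc]
  refine ⟨Nat.find_spec hex, ?_⟩
  rcases Nat.eq_zero_or_pos (Nat.find hex) with h | h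
  · rw [h]; simpa using h1
  · have hm := Nat.find_min hex (Nat.sub_lt h Nat.one_pos)
    rw [Nat.sub_add_cancel h] at hm
    exact not_lt.mp hm

/-- The index form of the covering statement: weights in `(0,1]` and nonnegative prices with a
small weighted price sum. -/
lemma index_cover {ι : Type*} [DecidableEq ι] (s : Finset ι) (w y : ι → ℝ) (δ : ℝ)
    (hδ : 0 < δ) (hδ' : 24 * δ ≤ (1 / 3 : ℝ) ^ 16)
    (hw0 : ∀ i ∈ s, 0 < w i) (hw1 : ∀ i ∈ s, w i ≤ 1) (hy : ∀ i, 0 ≤ y i)
    (hsum : ∑ i ∈ s, w i * y i ≤ δ) :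
    ∃ JJ : Finset (Finset ι), (∀ J ∈ JJ, J ⊆ s) ∧
      (∀ A ⊆ s, 1 / 2 ≤ ∑ i ∈ A, w i → ∃ J ∈ JJ, J ⊆ A) ∧
      ∑ J ∈ JJ, ∏ i ∈ J, y i ≤ 1 / 2 := by
  classical
  set c : ι → ℕ := fun i => cls (w i) with hc
  have hc1 : ∀ i ∈ s, (1 / 2 : ℝ) ^ (c i + 1) < w i := fun i hi =>
    (cls_spec (w i) (hw0 i hi) (hw1 i hi)).1
  have hc2 : ∀ i ∈ s, w i ≤ (1 / 2 : ℝ) ^ (c i) := fun i hi =>
    (cls_spec (w i) (hw0 i hi) (hw1 i hi)).2
  set N : ℕ := s.sup c + 1 with hN
  have hcN : ∀ i ∈ s, c i ∈ range N := fun i hi => by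
    rw [Finset.mem_range, hN]
    exact Nat.lt_succ_of_le (Finset.le_sup hi)
  set C : ℕ → Finset ι := fun j => s.filter (fun i => c i = j) with hC
  set m : ℕ → ℝ := fun j => ∑ i ∈ C j, y i with hm
  have hm0 : ∀ j, 0 ≤ m j := fun j => Finset.sum_nonneg (fun i _ => hy i)
  have hbudget : ∑ j ∈ range N, (1 / 2 : ℝ) ^ j * m j ≤ 2 * δ := by
    have h1 : ∑ j ∈ range N, (1 / 2 : ℝ) ^ j * m j = ∑ i ∈ s, (1 / 2 : ℝ) ^ (c i) * y i := by
      rw [← Finset.sum_fiberwise_of_maps_to hcN (fun i => (1 / 2 : ℝ) ^ (c i) * y i)]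
      refine Finset.sum_congr rfl (fun j _ => ?_)
      rw [hm, Finset.mul_sum]
      refine Finset.sum_congr rfl (fun i hi => ?_)
      rw [(Finset.mem_filter.mp hi).2]
    rw [h1]
    calc ∑ i ∈ s, (1 / 2 : ℝ) ^ (c i) * y i ≤ ∑ i ∈ s, 2 * (w i * y i) := by
          refine Finset.sum_le_sum (fun i hi => ?_)
          have h2 := hc1 i hi
          have hy' := hy i
          have h3 : (1 / 2 : ℝ) ^ (c i + 1) = (1 / 2 : ℝ) ^ (c i) / 2 := by rw [pow_succ]; ring
          have h4 : (1 / 2 : ℝ) ^ (c i) ≤ 2 * w i := by linarith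
          nlinarith
      _ = 2 * ∑ i ∈ s, w i * y i := by rw [Finset.mul_sum]
      _ ≤ 2 * δ := by linarith
  set k : ℕ → ℕ := fun j => ⌈m j / (8 * δ) + ((j : ℝ) + 1) / 16⌉₊ with hk
  have harg0 : ∀ j : ℕ, 0 < m j / (8 * δ) + ((j : ℝ) + 1) / 16 := fun j => by
    have := hm0 j
    positivity
  have hk1 : ∀ j : ℕ, m j / (8 * δ) + ((j : ℝ) + 1) / 16 ≤ (k j : ℝ) := fun j => Nat.le_ceil _
  have hk2 : ∀ j : ℕ, (k j : ℝ) < m j / (8 * δ) + ((j : ℝ) + 1) / 16 + 1 := fun j =>
    Nat.ceil_lt_add_one (harg0 j).le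
  refine ⟨(range N).biUnion (fun j => (C j).powersetCard (k j)), ?_, ?_, ?_⟩
  · intro J hJ
    obtain ⟨j, _, hj⟩ := Finset.mem_biUnion.mp hJ
    exact (Finset.mem_powersetCard.mp hj).1.trans (Finset.filter_subset _ _)
  · intro A hA hAw
    by_contra hcon
    push Not at hcon
    have hcard : ∀ j ∈ range N, ((A.filter (fun i => c i = j)).card : ℝ)
        < m j / (8 * δ) + ((j : ℝ) + 1) / 16 := by
      intro j hj
      have hlt : (A.filter (fun i => c i = j)).card < k j := by
        by_contra hge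
        push Not at hge
        obtain ⟨J, hJ1, hJ2⟩ := Finset.exists_subset_card_eq hge
        refine hcon J ?_ (hJ1.trans (Finset.filter_subset _ _))
        refine Finset.mem_biUnion.mpr ⟨j, hj, Finset.mem_powersetCard.mpr ⟨?_, hJ2⟩⟩
        intro i hi
        have hi' := Finset.mem_filter.mp (hJ1 hi)
        exact Finset.mem_filter.mpr ⟨hA hi'.1, hi'.2⟩
      have h1 : ((A.filter (fun i => c i = j)).card : ℝ) + 1 ≤ (k j : ℝ) := by
        exact_mod_cast hlt
      linarith [hk2 j]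
    have hAN : ∀ i ∈ A, c i ∈ range N := fun i hi => hcN i (hA hi)
    have h1 : ∑ i ∈ A, w i ≤ ∑ j ∈ range N,
        ((A.filter (fun i => c i = j)).card : ℝ) * (1 / 2 : ℝ) ^ j := by
      rw [← Finset.sum_fiberwise_of_maps_to hAN (fun i => w i)]
      refine Finset.sum_le_sum (fun j _ => ?_)
      calc ∑ i ∈ A.filter (fun i => c i = j), w i
          ≤ ∑ i ∈ A.filter (fun i => c i = j), (1 / 2 : ℝ) ^ j := by
            refine Finset.sum_le_sum (fun i hi => ?_)
            have hi' := Finset.mem_filter.mp hi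
            have := hc2 i (hA hi'.1)
            rwa [hi'.2] at this
        _ = ((A.filter (fun i => c i = j)).card : ℝ) * (1 / 2 : ℝ) ^ j := by
            rw [Finset.sum_const, nsmul_eq_mul]
    have h2 : ∑ j ∈ range N, ((A.filter (fun i => c i = j)).card : ℝ) * (1 / 2 : ℝ) ^ j
        < ∑ j ∈ range N, (m j / (8 * δ) + ((j : ℝ) + 1) / 16) * (1 / 2 : ℝ) ^ j := by
      refine Finset.sum_lt_sum_of_nonempty ?_ (fun j hj => ?_)
      · exact ⟨0, Finset.mem_range.mpr (by rw [hN]; omega)⟩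
      · exact mul_lt_mul_of_pos_right (hcard j hj) (by positivity)
    have h3 : ∑ j ∈ range N, (m j / (8 * δ) + ((j : ℝ) + 1) / 16) * (1 / 2 : ℝ) ^ j
        = (1 / (8 * δ)) * ∑ j ∈ range N, (1 / 2 : ℝ) ^ j * m j
          + (1 / 16) * ∑ j ∈ range N, ((j : ℝ) + 1) * (1 / 2 : ℝ) ^ j := by
      rw [Finset.mul_sum, Finset.mul_sum, ← Finset.sum_add_distrib]
      refine Finset.sum_congr rfl (fun j _ => ?_)
      ring
    have h4 : (1 / (8 * δ)) * ∑ j ∈ range N, (1 / 2 : ℝ) ^ j * m j ≤ 1 / 4 := by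
      have : (1 / (8 * δ)) * ∑ j ∈ range N, (1 / 2 : ℝ) ^ j * m j ≤ (1 / (8 * δ)) * (2 * δ) :=
        mul_le_mul_of_nonneg_left hbudget (by positivity)
      have h5 : (1 / (8 * δ)) * (2 * δ) = 1 / 4 := by field_simp; ring
      linarith
    have h6 := arith_geom N
    linarith
  · have hnn : ∀ J : Finset ι, 0 ≤ ∏ i ∈ J, y i := fun J => Finset.prod_nonneg (fun i _ => hy i)
    refine (sum_biUnion_le' _ _ _ hnn).trans ?_
    refine le_trans (Finset.sum_le_sum (fun j _ => ?_)) (geom_third N)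
    -- the class `j`
    have hkpos : 0 < k j := Nat.ceil_pos.mpr (harg0 j)
    have hkR : (0 : ℝ) < (k j : ℝ) := by exact_mod_cast hkpos
    have hfact : (0 : ℝ) < ((k j).factorial : ℝ) := by exact_mod_cast Nat.factorial_pos _
    have hmk : m j ≤ 8 * δ * (k j : ℝ) := by
      have h1 : m j / (8 * δ) ≤ (k j : ℝ) := by
        have h2 : (0 : ℝ) ≤ ((j : ℝ) + 1) / 16 := by positivity
        linarith [hk1 j]
      rw [div_le_iff₀ (by positivity)] at h1
      linarith
    have hjk : j + 1 ≤ 16 * k j := by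
      have h1 : ((j : ℝ) + 1) / 16 ≤ (k j : ℝ) := by
        have h2 : (0 : ℝ) ≤ m j / (8 * δ) := div_nonneg (hm0 j) (by positivity)
        linarith [hk1 j]
      have h2 : ((j : ℝ) + 1) ≤ 16 * (k j : ℝ) := by linarith
      exact_mod_cast h2
    have hes := esymm_le y (C j) (fun i _ => hy i) (k j)
    have hE : ∑ J ∈ (C j).powersetCard (k j), ∏ i ∈ J, y i
        ≤ (m j) ^ (k j) / ((k j).factorial : ℝ) := by
      rw [le_div_iff₀ hfact]
      linarith
    have h1 : (m j) ^ (k j) / ((k j).factorial : ℝ)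
        ≤ (8 * δ * (k j : ℝ)) ^ (k j) / ((k j).factorial : ℝ) :=
      div_le_div_of_nonneg_right (pow_le_pow_left₀ (hm0 j) hmk _) hfact.le
    have h2 : (8 * δ * (k j : ℝ)) ^ (k j) / ((k j).factorial : ℝ)
        = (8 * δ) ^ (k j) * ((k j : ℝ) ^ (k j) / ((k j).factorial : ℝ)) := by
      rw [mul_pow]; ring
    have h3 : (k j : ℝ) ^ (k j) / ((k j).factorial : ℝ) ≤ Real.exp (k j : ℝ) :=
      Real.pow_div_factorial_le_exp _ hkR.le _
    have h4 : Real.exp (k j : ℝ) = Real.exp 1 ^ (k j) := by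
      rw [← Real.exp_nat_mul]; simp
    have h5 : Real.exp 1 ≤ 3 := by
      have := Real.exp_one_lt_d9
      linarith
    have h6 : (8 * δ) ^ (k j) * Real.exp 1 ^ (k j) ≤ ((1 / 3 : ℝ) ^ 16) ^ (k j) := by
      rw [← mul_pow]
      refine pow_le_pow_left₀ (by positivity) ?_ _
      have : 8 * δ * Real.exp 1 ≤ 8 * δ * 3 := mul_le_mul_of_nonneg_left h5 (by positivity)
      linarith
    have h7 : ((1 / 3 : ℝ) ^ 16) ^ (k j) ≤ (1 / 3 : ℝ) ^ (j + 1) := by
      rw [← pow_mul]
      exact pow_le_pow_of_le_one (by norm_num) (by norm_num) hjk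
    calc ∑ J ∈ (C j).powersetCard (k j), ∏ i ∈ J, y i
        ≤ (m j) ^ (k j) / ((k j).factorial : ℝ) := hE
      _ ≤ (8 * δ) ^ (k j) * ((k j : ℝ) ^ (k j) / ((k j).factorial : ℝ)) := by rw [← h2]; exact h1
      _ ≤ (8 * δ) ^ (k j) * Real.exp 1 ^ (k j) := by
          rw [← h4]
          exact mul_le_mul_of_nonneg_left h3 (by positivity)
      _ ≤ (1 / 3 : ℝ) ^ (j + 1) := h6.trans h7

end Index

section Main

/-- In a laminar family the members containing a fixed nonempty set form a chain with distinct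
cardinalities, so their costs are bounded by a geometric series. -/
lemma chain_sum {X : Type} [Fintype X] [DecidableEq X] (SS : Finset (Finset X)) (p : ℝ)
    (hp0 : 0 ≤ p) (hp1 : p ≤ 1 / 2)
    (hlam : ∀ S ∈ SS, ∀ T ∈ SS, S ⊆ T ∨ T ⊆ S ∨ Disjoint S T)
    (S : Finset X) (hS : S.Nonempty) :
    ∑ T ∈ SS.filter (fun T => S ⊆ T), p ^ T.card ≤ 2 * p ^ S.card := by
  classical
  set ch := SS.filter (fun T => S ⊆ T) with hch
  set M := Fintype.card X + 1 with hM
  have hinj : ∀ T ∈ ch, ∀ T' ∈ ch, T.card - S.card = T'.card - S.card → T = T' := by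
    intro T hT T' hT' h
    have h1 := Finset.mem_filter.mp hT
    have h2 := Finset.mem_filter.mp hT'
    have c1 : S.card ≤ T.card := Finset.card_le_card h1.2
    have c2 : S.card ≤ T'.card := Finset.card_le_card h2.2
    rcases hlam T h1.1 T' h2.1 with h' | h' | h'
    · exact Finset.eq_of_subset_of_card_le h' (by omega)
    · exact (Finset.eq_of_subset_of_card_le h' (by omega)).symm
    · exfalso
      obtain ⟨x, hx⟩ := hS
      exact Finset.disjoint_left.mp h' (h1.2 hx) (h2.2 hx)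
  have h1 : ∑ T ∈ ch, p ^ T.card
      = ∑ i ∈ ch.image (fun T => T.card - S.card), p ^ (S.card + i) := by
    rw [Finset.sum_image hinj]
    refine Finset.sum_congr rfl (fun T hT => ?_)
    have c1 : S.card ≤ T.card := Finset.card_le_card (Finset.mem_filter.mp hT).2
    congr 1
    omega
  have h2 : ch.image (fun T => T.card - S.card) ⊆ range M := by
    intro i hi
    obtain ⟨T, hT, rfl⟩ := Finset.mem_image.mp hi
    rw [Finset.mem_range, hM]
    have : T.card ≤ Fintype.card X := Finset.card_le_univ T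
    omega
  rw [h1]
  calc ∑ i ∈ ch.image (fun T => T.card - S.card), p ^ (S.card + i)
      ≤ ∑ i ∈ range M, p ^ (S.card + i) :=
        Finset.sum_le_sum_of_subset_of_nonneg h2 (fun i _ _ => pow_nonneg hp0 _)
    _ = p ^ S.card * ∑ i ∈ range M, p ^ i := by
        rw [Finset.mul_sum]
        exact Finset.sum_congr rfl (fun i _ => by rw [pow_add])
    _ ≤ p ^ S.card * ∑ i ∈ range M, (1 / 2 : ℝ) ^ i :=
        mul_le_mul_of_nonneg_left
          (Finset.sum_le_sum (fun i _ => pow_le_pow_left₀ hp0 hp1 i)) (pow_nonneg hp0 _)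
    _ ≤ p ^ S.card * 2 := mul_le_mul_of_nonneg_left (sum_geometric_two_le M) (pow_nonneg hp0 _)
    _ = 2 * p ^ S.card := by ring

/-- The covering statement: a fractional cover with laminar support and cost at most `1/2` at
`p` yields a cover of cost at most `1/2` at `p/K`. -/
theorem small_of_laminar : ∃ K : ℝ, 1 ≤ K ∧ ∀ (X : Type) [Fintype X] [DecidableEq X]
    (F : Finset (Finset X)) (g : Finset X → ℝ) (p : ℝ), 0 ≤ p → p ≤ 1 →
    IsFracCover g F → fracCost g p ≤ 1 / 2 →
    (∀ S T : Finset X, g S ≠ 0 → g T ≠ 0 → S ⊆ T ∨ T ⊆ S ∨ Disjoint S T) →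
    Small F (p / K) := by
  refine ⟨2 * (24 * 3 ^ 16), by norm_num, ?_⟩
  intro X _ _ F g p hp0 hp1 hg hcost hlam
  classical
  set K0 : ℝ := 24 * 3 ^ 16 with hK0
  have hK0pos : 0 < K0 := by positivity
  have hK01 : 1 ≤ K0 := by rw [hK0]; norm_num
  set p' : ℝ := min p (1 / 2) with hp'
  have hp'0 : 0 ≤ p' := le_min hp0 (by norm_num)
  have hp'half : p' ≤ 1 / 2 := min_le_right _ _
  have hp'p : p' ≤ p := min_le_left _ _
  have hpp' : p / 2 ≤ p' := by
    rw [hp']
    apply le_min <;> linarith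
  obtain ⟨hg01, hgcov⟩ := hg
  have hg0 : ∀ S, 0 ≤ g S := fun S => (hg01 S).1
  have hite0 : ∀ S T : Finset X, 0 ≤ (if S ⊆ T then g S else 0) := fun S T => by
    split_ifs
    · exact hg0 S
    · exact le_refl 0
  -- the cost at `p'`
  have hcost' : ∑ S : Finset X, g S * p' ^ S.card ≤ 1 / 2 := by
    refine le_trans (Finset.sum_le_sum (fun S _ => ?_)) hcost
    exact mul_le_mul_of_nonneg_left (pow_le_pow_left₀ hp'0 hp'p _) (hg0 S)
  have hgempty : g ∅ ≤ 1 / 2 := by
    have h1 : g ∅ * p' ^ (∅ : Finset X).card ≤ ∑ S : Finset X, g S * p' ^ S.card :=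
      Finset.single_le_sum (f := fun S => g S * p' ^ S.card)
        (fun S _ => mul_nonneg (hg0 S) (pow_nonneg hp'0 _)) (Finset.mem_univ ∅)
    simp at h1
    linarith
  -- the nonempty sets of the support
  set SS : Finset (Finset X) := Finset.univ.filter (fun S => g S ≠ 0 ∧ S.Nonempty) with hSS
  have hSSmem : ∀ S, S ∈ SS ↔ g S ≠ 0 ∧ S.Nonempty := fun S => by simp [hSS]
  have hlamSS : ∀ S ∈ SS, ∀ T ∈ SS, S ⊆ T ∨ T ⊆ S ∨ Disjoint S T := fun S hS T hT =>
    hlam S T ((hSSmem S).mp hS).1 ((hSSmem T).mp hT).1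
  -- the weight of the sets of the support inside `T`
  set W : Finset X → ℝ := fun T => ∑ S ∈ SS, if S ⊆ T then g S else 0 with hW
  have hW0 : ∀ T, 0 ≤ W T := fun T => Finset.sum_nonneg (fun S _ => hite0 S T)
  have hWpos : ∀ T ∈ SS, 0 < W T := by
    intro T hT
    have h1 : (if T ⊆ T then g T else 0) ≤ W T :=
      Finset.single_le_sum (f := fun S => if S ⊆ T then g S else 0) (fun S _ => hite0 S T) hT
    rw [if_pos (Finset.Subset.refl T)] at h1
    have : 0 < g T := lt_of_le_of_ne (hg0 T) (Ne.symm ((hSSmem T).mp hT).1)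
    linarith
  set W' : Finset X → ℝ := fun T => min (W T) 1 with hW'
  have hW'0 : ∀ T, 0 ≤ W' T := fun T => le_min (hW0 T) (by norm_num)
  set y : Finset X → ℝ := fun T => (p' / K0) ^ T.card with hy
  have hy0 : ∀ T, 0 ≤ y T := fun T => pow_nonneg (div_nonneg hp'0 hK0pos.le) _
  -- the budget
  have hbud : ∑ T ∈ SS, W' T * y T ≤ 1 / K0 := by
    have h1 : ∀ T ∈ SS, W' T * y T ≤ (1 / K0) * (W T * p' ^ T.card) := by
      intro T hT
      have hne : 1 ≤ T.card := Finset.card_pos.mpr ((hSSmem T).mp hT).2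
      have hyT : y T ≤ p' ^ T.card / K0 := by
        rw [hy]
        simp only
        rw [div_pow]
        apply div_le_div_of_nonneg_left (pow_nonneg hp'0 _) hK0pos
        calc K0 = K0 ^ 1 := (pow_one K0).symm
          _ ≤ K0 ^ T.card := pow_le_pow_right₀ hK01 hne
      have hW'W : W' T ≤ W T := min_le_left _ _
      calc W' T * y T ≤ W T * (p' ^ T.card / K0) := mul_le_mul hW'W hyT (hy0 T) (hW0 T)
        _ = (1 / K0) * (W T * p' ^ T.card) := by ring
    have h2 : ∑ T ∈ SS, W T * p' ^ T.card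
        = ∑ S ∈ SS, g S * ∑ T ∈ SS.filter (fun T => S ⊆ T), p' ^ T.card := by
      simp only [hW]
      rw [Finset.sum_congr rfl (fun T _ => Finset.sum_mul _ _ _), Finset.sum_comm]
      refine Finset.sum_congr rfl (fun S _ => ?_)
      rw [Finset.mul_sum, Finset.sum_filter (s := SS) (p := fun T => S ⊆ T)]
      refine Finset.sum_congr rfl (fun T _ => ?_)
      split_ifs <;> ring
    have h3 : ∑ S ∈ SS, g S * ∑ T ∈ SS.filter (fun T => S ⊆ T), p' ^ T.card
        ≤ ∑ S ∈ SS, g S * (2 * p' ^ S.card) := by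
      refine Finset.sum_le_sum (fun S hS => ?_)
      exact mul_le_mul_of_nonneg_left
        (chain_sum SS p' hp'0 hp'half hlamSS S ((hSSmem S).mp hS).2) (hg0 S)
    have h4 : ∑ S ∈ SS, g S * (2 * p' ^ S.card) ≤ 2 * ∑ S : Finset X, g S * p' ^ S.card := by
      rw [Finset.mul_sum]
      calc ∑ S ∈ SS, g S * (2 * p' ^ S.card) = ∑ S ∈ SS, 2 * (g S * p' ^ S.card) :=
            Finset.sum_congr rfl (fun S _ => by ring)
        _ ≤ ∑ S : Finset X, 2 * (g S * p' ^ S.card) :=
            Finset.sum_le_sum_of_subset_of_nonneg (Finset.subset_univ _)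
              (fun S _ _ => mul_nonneg (by norm_num) (mul_nonneg (hg0 S) (pow_nonneg hp'0 _)))
    calc ∑ T ∈ SS, W' T * y T ≤ ∑ T ∈ SS, (1 / K0) * (W T * p' ^ T.card) :=
          Finset.sum_le_sum h1
      _ = (1 / K0) * ∑ T ∈ SS, W T * p' ^ T.card := by rw [Finset.mul_sum]
      _ ≤ (1 / K0) * 1 := by
          apply mul_le_mul_of_nonneg_left _ (by positivity)
          rw [h2]
          linarith
      _ = 1 / K0 := by ring
  -- the index statement
  obtain ⟨JJ, hJJs, hJJcov, hJJcost⟩ := index_cover SS W' y (1 / K0) (by positivity)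
    (by rw [hK0]; norm_num) (fun T hT => lt_min (hWpos T hT) (by norm_num))
    (fun T _ => min_le_right _ _) hy0 hbud
  -- the cover
  set JJd : Finset (Finset (Finset X)) :=
    JJ.filter (fun J : Finset (Finset X) => (J : Set (Finset X)).PairwiseDisjoint id) with hJJd
  refine ⟨JJd.image (fun J : Finset (Finset X) => J.biUnion id), ?_, ?_⟩
  · intro H hH
    set D := SS.filter (fun S => S ⊆ H) with hD
    set Mx := D.filter (fun T => ∀ T' ∈ D, T ⊆ T' → T' = T) with hMx
    have hMxD : Mx ⊆ D := Finset.filter_subset _ _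
    have hDSS : D ⊆ SS := Finset.filter_subset _ _
    have hsumD : 1 / 2 ≤ ∑ S ∈ D, g S := by
      have h1 := hgcov H hH
      have hsub : insert ∅ D ⊆ H.powerset := by
        intro S hS
        rw [Finset.mem_powerset]
        rcases Finset.mem_insert.mp hS with h | h
        · rw [h]
          exact Finset.empty_subset _
        · exact (Finset.mem_filter.mp h).2
      have h2 : ∑ S ∈ H.powerset, g S = ∑ S ∈ insert ∅ D, g S := by
        symm
        apply Finset.sum_subset hsub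
        intro S hS hS'
        by_contra hne
        apply hS'
        have hSne : S ≠ ∅ := fun h => hS' (by rw [h]; exact Finset.mem_insert_self _ _)
        exact Finset.mem_insert_of_mem (Finset.mem_filter.mpr
          ⟨(hSSmem S).mpr ⟨hne, Finset.nonempty_iff_ne_empty.mpr hSne⟩,
            Finset.mem_powerset.mp hS⟩)
      have hnotin : (∅ : Finset X) ∉ D := by
        intro h
        have := ((hSSmem ∅).mp (hDSS h)).2
        simp at this
      rw [h2, Finset.sum_insert hnotin] at h1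
      linarith
    have hmax : ∀ S ∈ D, ∃ T ∈ Mx, S ⊆ T := by
      intro S hS
      have hne : (D.filter (fun T => S ⊆ T)).Nonempty :=
        ⟨S, Finset.mem_filter.mpr ⟨hS, Finset.Subset.refl S⟩⟩
      obtain ⟨T, hT, hTmax⟩ := Finset.exists_max_image _ (fun T => T.card) hne
      have hT' := Finset.mem_filter.mp hT
      refine ⟨T, Finset.mem_filter.mpr ⟨hT'.1, ?_⟩, hT'.2⟩
      intro T' hT'D hTT'
      have := hTmax T' (Finset.mem_filter.mpr ⟨hT'D, hT'.2.trans hTT'⟩)
      exact (Finset.eq_of_subset_of_card_le hTT' this).symm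
    have hMxdisj : (Mx : Set (Finset X)).PairwiseDisjoint id := by
      intro T hT T' hT' hne
      have h1 := Finset.mem_filter.mp (Finset.mem_coe.mp hT)
      have h2 := Finset.mem_filter.mp (Finset.mem_coe.mp hT')
      rcases hlamSS T (hDSS h1.1) T' (hDSS h2.1) with h | h | h
      · exact absurd (h1.2 T' h2.1 h).symm hne
      · exact absurd (h2.2 T h1.1 h) hne
      · exact h
    have hMw : 1 / 2 ≤ ∑ T ∈ Mx, W' T := by
      by_cases hbig : ∃ T ∈ Mx, 1 ≤ W T
      · obtain ⟨T, hT, hT1⟩ := hbig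
        have h1 : W' T ≤ ∑ T ∈ Mx, W' T :=
          Finset.single_le_sum (f := W') (fun T _ => hW'0 T) hT
        have h2 : W' T = 1 := min_eq_right hT1
        linarith
      · push Not at hbig
        have h1 : ∑ T ∈ Mx, W' T = ∑ T ∈ Mx, W T :=
          Finset.sum_congr rfl (fun T hT => min_eq_left (hbig T hT).le)
        rw [h1]
        refine hsumD.trans ?_
        calc ∑ S ∈ D, g S ≤ ∑ S ∈ D, ∑ T ∈ Mx, (if S ⊆ T then g S else 0) := by
              refine Finset.sum_le_sum (fun S hS => ?_)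
              obtain ⟨T, hT, hST⟩ := hmax S hS
              have h5 := Finset.single_le_sum (f := fun T => if S ⊆ T then g S else 0)
                (fun T _ => hite0 S T) hT
              rw [if_pos hST] at h5
              exact h5
          _ ≤ ∑ S ∈ SS, ∑ T ∈ Mx, (if S ⊆ T then g S else 0) :=
              Finset.sum_le_sum_of_subset_of_nonneg hDSS
                (fun S _ _ => Finset.sum_nonneg (fun T _ => hite0 S T))
          _ = ∑ T ∈ Mx, W T := by rw [Finset.sum_comm]
    obtain ⟨J, hJ, hJM⟩ := hJJcov Mx (hMxD.trans hDSS) hMw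
    have hJd : (J : Set (Finset X)).PairwiseDisjoint id :=
      hMxdisj.subset (by exact_mod_cast hJM)
    refine ⟨J.biUnion id, Finset.mem_image.mpr ⟨J, Finset.mem_filter.mpr ⟨hJ, hJd⟩, rfl⟩, ?_⟩
    intro x hx
    obtain ⟨T, hT, hxT⟩ := Finset.mem_biUnion.mp hx
    exact (Finset.mem_filter.mp (hMxD (hJM hT))).2 hxT
  · unfold cost
    have hq : p / (2 * (24 * 3 ^ 16)) ≤ p' / K0 := by
      rw [hK0, div_le_div_iff₀ (by positivity) (by positivity)]
      nlinarith
    have hq0 : 0 ≤ p / (2 * (24 * 3 ^ 16)) := by positivity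
    calc ∑ U ∈ JJd.image (fun J : Finset (Finset X) => J.biUnion id),
          (p / (2 * (24 * 3 ^ 16))) ^ U.card
        ≤ ∑ U ∈ JJd.image (fun J : Finset (Finset X) => J.biUnion id), (p' / K0) ^ U.card :=
          Finset.sum_le_sum (fun U _ => pow_le_pow_left₀ hq0 hq _)
      _ ≤ ∑ J ∈ JJd, (p' / K0) ^ (J.biUnion id).card :=
          Finset.sum_image_le_of_nonneg
            (fun U _ => pow_nonneg (div_nonneg hp'0 hK0pos.le) _)
      _ = ∑ J ∈ JJd, ∏ T ∈ J, y T := by
          refine Finset.sum_congr rfl (fun J hJ => ?_)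
          have hd := (Finset.mem_filter.mp hJ).2
          rw [Finset.card_biUnion hd, ← Finset.prod_pow_eq_pow_sum]
          rfl
      _ ≤ ∑ J ∈ JJ, ∏ T ∈ J, y T :=
          Finset.sum_le_sum_of_subset_of_nonneg (Finset.filter_subset _ _)
            (fun J _ _ => Finset.prod_nonneg (fun T _ => hy0 T))
      _ ≤ 1 / 2 := hJJcost

/-- **Talagrand's comparison for fractional covers with laminar support.**  There is a
universal constant `K` such that for every finite set `X`, every family `F` of subsets of `X`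
and every `p` in `[0,1]`: if `F` has a fractional cover `g` of cost at most `1/2` at `p` whose
support is laminar (any two sets `S`, `T` with `g S ≠ 0` and `g T ≠ 0` are nested or disjoint),
then `F` is `(p/K)`-small, and hence `p ≤ K * q F` for the expectation threshold `q F`. -/
theorem result : ∃ K : ℝ, 1 ≤ K ∧ ∀ (X : Type) [Fintype X] [DecidableEq X]
    (F : Finset (Finset X)) (g : Finset X → ℝ) (p : ℝ), 0 ≤ p → p ≤ 1 →
    IsFracCover g F → fracCost g p ≤ 1 / 2 →
    (∀ S T : Finset X, g S ≠ 0 → g T ≠ 0 → S ⊆ T ∨ T ⊆ S ∨ Disjoint S T) →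
    Small F (p / K) ∧ p ≤ K * q F := by
  obtain ⟨K, hK1, hK⟩ := small_of_laminar
  refine ⟨K, hK1, ?_⟩
  intro X _ _ F g p hp0 hp1 hg hcost hlam
  have hsmall := hK X F g p hp0 hp1 hg hcost hlam
  refine ⟨hsmall, ?_⟩
  have hKpos : 0 < K := by linarith
  have h0 : 0 ≤ p / K := div_nonneg hp0 hKpos.le
  have h1 : p / K ≤ 1 := by
    rw [div_le_one hKpos]
    linarith
  have hle : p / K ≤ q F := by
    unfold q
    exact le_csSup ⟨1, fun x hx => hx.2.1⟩ ⟨h0, h1, hsmall⟩
  rw [div_le_iff₀ hKpos] at hle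
  linarith

end Main

end Vale.Agent.Results.P034.LaminarSupports
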