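import Mathlib
import Vale.Agent.Results.P034.LaminarSupports

namespace Vale.Agent.Results.P034.ConnectedSupports

open Finset
open Vale.Agent.Results.P034.RatioLowerBound
open Vale.Agent.Results.P034.LaminarSupports

section Graph

variable {X : Type} [DecidableEq X]

/-- Cut form of connectedness of a vertex set `R` in a graph: every nonempty proper subset of
`R` is joined to its complement in `R` by an edge. -/
def CutConn (Γ : SimpleGraph X) (R : Finset X) : Prop :=
  ∀ A : Finset X, A ⊆ R → A.Nonempty → A ≠ R → ∃ u ∈ A, ∃ v ∈ R \ A, Γ.Adj u v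

/-- A vertex set inducing a connected subgraph is connected in the cut form. -/
lemma cutConn_of_connected (Γ : SimpleGraph X) (R : Finset X)
    (h : (Γ.induce (R : Set X)).Connected) : CutConn Γ R := by
  intro A hAR hAne hAR'
  obtain ⟨a, ha⟩ := hAne
  have hex : ∃ b ∈ R, b ∉ A := by
    by_contra hcon
    push Not at hcon
    exact hAR' (Finset.Subset.antisymm hAR hcon)
  obtain ⟨b, hbR, hbA⟩ := hex
  have haR : a ∈ R := hAR ha
  obtain ⟨p⟩ := h.preconnected ⟨a, Finset.mem_coe.mpr haR⟩ ⟨b, Finset.mem_coe.mpr hbR⟩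
  obtain ⟨d, _, hd1, hd2⟩ := p.exists_boundary_dart {z : (R : Set X) | (z : X) ∈ A} ha hbA
  refine ⟨d.toProd.1, hd1, d.toProd.2, ?_, d.adj⟩
  exact Finset.mem_sdiff.mpr ⟨Finset.mem_coe.mp d.toProd.2.2, hd2⟩

/-- The union of two intersecting cut-connected sets is cut-connected. -/
lemma cutConn_union (Γ : SimpleGraph X) (R R' : Finset X) (hR : CutConn Γ R)
    (hR' : CutConn Γ R') (hint : ¬ Disjoint R R') : CutConn Γ (R ∪ R') := by
  intro A hA hAne hAneq
  obtain ⟨z, hzR, hzR'⟩ := Finset.not_disjoint_iff.mp hint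
  -- if `A ∩ R` is a nonempty proper subset of `R` we are done; similarly for `R'`
  by_cases h1 : (A ∩ R).Nonempty ∧ A ∩ R ≠ R
  · obtain ⟨u, hu, v, hv, huv⟩ := hR (A ∩ R) Finset.inter_subset_right h1.1 h1.2
    refine ⟨u, (Finset.mem_inter.mp hu).1, v, ?_, huv⟩
    rw [Finset.mem_sdiff] at hv ⊢
    refine ⟨Finset.mem_union_left _ hv.1, fun hvA => hv.2 (Finset.mem_inter.mpr ⟨hvA, hv.1⟩)⟩
  by_cases h2 : (A ∩ R').Nonempty ∧ A ∩ R' ≠ R'
  · obtain ⟨u, hu, v, hv, huv⟩ := hR' (A ∩ R') Finset.inter_subset_right h2.1 h2.2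
    refine ⟨u, (Finset.mem_inter.mp hu).1, v, ?_, huv⟩
    rw [Finset.mem_sdiff] at hv ⊢
    refine ⟨Finset.mem_union_right _ hv.1, fun hvA => hv.2 (Finset.mem_inter.mpr ⟨hvA, hv.1⟩)⟩
  exfalso
  rw [not_and_or, Finset.not_nonempty_iff_eq_empty, not_not] at h1 h2
  by_cases hz : z ∈ A
  · have e1 : A ∩ R = R := by
      rcases h1 with h | h
      · exact absurd (Finset.mem_inter.mpr ⟨hz, hzR⟩) (by rw [h]; exact Finset.notMem_empty z)
      · exact h
    have e2 : A ∩ R' = R' := by
      rcases h2 with h | h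
      · exact absurd (Finset.mem_inter.mpr ⟨hz, hzR'⟩) (by rw [h]; exact Finset.notMem_empty z)
      · exact h
    apply hAneq
    apply Finset.Subset.antisymm hA
    intro x hx
    rcases Finset.mem_union.mp hx with h | h
    · rw [← e1] at h
      exact (Finset.mem_inter.mp h).1
    · rw [← e2] at h
      exact (Finset.mem_inter.mp h).1
  · have e1 : A ∩ R = ∅ := by
      rcases h1 with h | h
      · exact h
      · exact absurd (by rw [← h] at hzR; exact (Finset.mem_inter.mp hzR).1) hz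
    have e2 : A ∩ R' = ∅ := by
      rcases h2 with h | h
      · exact h
      · exact absurd (by rw [← h] at hzR'; exact (Finset.mem_inter.mp hzR').1) hz
    obtain ⟨a, ha⟩ := hAne
    rcases Finset.mem_union.mp (hA ha) with h | h
    · exact Finset.notMem_empty a (e1 ▸ Finset.mem_inter.mpr ⟨ha, h⟩)
    · exact Finset.notMem_empty a (e2 ▸ Finset.mem_inter.mpr ⟨ha, h⟩)

/-- The walks of length `L` starting at `x`, as lists of vertices. -/
def walks [Fintype X] (Γ : SimpleGraph X) [DecidableRel Γ.Adj] : ℕ → X → Finset (List X)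
  | 0, x => {[x]}
  | L + 1, x => (Γ.neighborFinset x).biUnion (fun u => (walks Γ L u).image (fun w => x :: w))

lemma card_walks [Fintype X] (Γ : SimpleGraph X) [DecidableRel Γ.Adj] (Δ : ℕ) (hΔ : ∀ x, Γ.degree x ≤ Δ) :
    ∀ (L : ℕ) (x : X), (walks Γ L x).card ≤ Δ ^ L := by
  intro L
  induction L with
  | zero => intro x; simp [walks]
  | succ L ih =>
    intro x
    rw [walks]
    refine Finset.card_biUnion_le.trans ?_
    calc ∑ u ∈ Γ.neighborFinset x, ((walks Γ L u).image (fun w => x :: w)).card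
        ≤ ∑ u ∈ Γ.neighborFinset x, Δ ^ L :=
          Finset.sum_le_sum (fun u _ => Finset.card_image_le.trans (ih u))
      _ = Γ.degree x * Δ ^ L := by
          rw [Finset.sum_const, smul_eq_mul, SimpleGraph.card_neighborFinset_eq_degree]
      _ ≤ Δ * Δ ^ L := Nat.mul_le_mul_right _ (hΔ x)
      _ = Δ ^ (L + 1) := by ring

/-- A walk can be extended by a detour to a neighbour of one of its vertices. -/
lemma walks_insert [Fintype X] (Γ : SimpleGraph X) [DecidableRel Γ.Adj] :
    ∀ (L : ℕ) (x : X) (w : List X), w ∈ walks Γ L x → ∀ u ∈ w, ∀ v, Γ.Adj u v →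
      ∃ w' ∈ walks Γ (L + 2) x, w'.toFinset = insert v w.toFinset := by
  intro L
  induction L with
  | zero =>
    intro x w hw u hu v huv
    simp only [walks, Finset.mem_singleton] at hw
    subst hw
    have hux : u = x := by simpa using hu
    subst hux
    refine ⟨[u, v, u], ?_, ?_⟩
    · simp only [walks, Finset.mem_biUnion, Finset.mem_image, SimpleGraph.mem_neighborFinset,
        Finset.mem_singleton]
      exact ⟨v, huv, [v, u], ⟨u, huv.symm, [u], rfl, rfl⟩, rfl⟩
    · ext z
      simp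
  | succ L ih =>
    intro x w hw u hu v huv
    rw [walks] at hw
    obtain ⟨a, ha, hw'⟩ := Finset.mem_biUnion.mp hw
    obtain ⟨w0, hw0, rfl⟩ := Finset.mem_image.mp hw'
    rcases List.mem_cons.mp hu with hux | huw0
    · subst hux
      refine ⟨u :: v :: u :: w0, ?_, ?_⟩
      · have h1 : u :: w0 ∈ walks Γ (L + 1) u := hw
        have h2 : v :: u :: w0 ∈ walks Γ (L + 2) v := by
          rw [walks]
          exact Finset.mem_biUnion.mpr ⟨u, (SimpleGraph.mem_neighborFinset _ _ _).mpr huv.symm,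
            Finset.mem_image.mpr ⟨u :: w0, h1, rfl⟩⟩
        rw [walks]
        exact Finset.mem_biUnion.mpr ⟨v, (SimpleGraph.mem_neighborFinset _ _ _).mpr huv,
          Finset.mem_image.mpr ⟨v :: u :: w0, h2, rfl⟩⟩
      · ext z
        simp
    · obtain ⟨w1, hw1, hw1'⟩ := ih a w0 hw0 u huw0 v huv
      refine ⟨x :: w1, ?_, ?_⟩
      · rw [walks]
        exact Finset.mem_biUnion.mpr ⟨a, ha, Finset.mem_image.mpr ⟨w1, hw1, rfl⟩⟩
      · rw [List.toFinset_cons, hw1', List.toFinset_cons]
        ext z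
        simp
        tauto

/-- Every cut-connected set containing `x` is the vertex set of a walk from `x` of length
twice its size minus two. -/
lemma exists_walk [Fintype X] (Γ : SimpleGraph X) [DecidableRel Γ.Adj] (R : Finset X) (hR : CutConn Γ R)
    (x : X) (hx : x ∈ R) :
    ∀ k : ℕ, k + 1 ≤ R.card → ∃ T : Finset X, T ⊆ R ∧ T.card = k + 1 ∧
      ∃ w ∈ walks Γ (2 * k) x, w.toFinset = T := by
  intro k
  induction k with
  | zero =>
    intro _
    refine ⟨{x}, Finset.singleton_subset_iff.mpr hx, by simp, [x], by simp [walks], by simp⟩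
  | succ k ih =>
    intro hk
    obtain ⟨T, hTR, hTc, w, hw, hwT⟩ := ih (by omega)
    have hTne : T.Nonempty := Finset.card_pos.mp (by omega)
    have hTR' : T ≠ R := fun h => by rw [h] at hTc; omega
    obtain ⟨u, hu, v, hv, huv⟩ := hR T hTR hTne hTR'
    have huw : u ∈ w := by
      rw [← List.mem_toFinset, hwT]
      exact hu
    obtain ⟨w', hw', hw'T⟩ := walks_insert Γ (2 * k) x w hw u huw v huv
    have hvT : v ∉ T := (Finset.mem_sdiff.mp hv).2
    refine ⟨insert v T, ?_, ?_, w', ?_, ?_⟩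
    · exact Finset.insert_subset (Finset.mem_sdiff.mp hv).1 hTR
    · rw [Finset.card_insert_of_notMem hvT, hTc]
    · have : 2 * (k + 1) = 2 * k + 2 := by ring
      rw [this]
      exact hw'
    · rw [hw'T, hwT]

/-- The number of cut-connected sets of size `m` through a vertex, in a graph of maximum
degree at most `Δ`. -/
lemma card_cutConn [Fintype X] (Γ : SimpleGraph X) [DecidableRel Γ.Adj] (Δ : ℕ)
    (hΔ : ∀ x, Γ.degree x ≤ Δ) (KK : Finset (Finset X)) (hKK : ∀ R ∈ KK, CutConn Γ R)
    (x : X) (m : ℕ) :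
    (KK.filter (fun R => x ∈ R ∧ R.card = m)).card ≤ ((Δ + 1) ^ 2) ^ m := by
  rcases Nat.eq_zero_or_pos m with hm | hm
  · subst hm
    have : KK.filter (fun R => x ∈ R ∧ R.card = 0) = ∅ := by
      rw [Finset.filter_eq_empty_iff]
      intro R _ h
      have := Finset.card_pos.mpr ⟨x, h.1⟩
      omega
    rw [this]
    simp
  · have hsub : KK.filter (fun R => x ∈ R ∧ R.card = m)
        ⊆ (walks Γ (2 * (m - 1)) x).image List.toFinset := by
      intro R hR
      obtain ⟨hRK, hxR, hRm⟩ := Finset.mem_filter.mp hR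
      obtain ⟨T, hTR, hTc, w, hw, hwT⟩ :=
        exists_walk Γ R (hKK R hRK) x hxR (m - 1) (by omega)
      have hTeq : T = R := Finset.eq_of_subset_of_card_le hTR (by omega)
      exact Finset.mem_image.mpr ⟨w, hw, hwT.trans hTeq⟩
    calc (KK.filter (fun R => x ∈ R ∧ R.card = m)).card
        ≤ ((walks Γ (2 * (m - 1)) x).image List.toFinset).card := Finset.card_le_card hsub
      _ ≤ (walks Γ (2 * (m - 1)) x).card := Finset.card_image_le
      _ ≤ Δ ^ (2 * (m - 1)) := card_walks Γ Δ hΔ _ x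
      _ ≤ (Δ + 1) ^ (2 * (m - 1)) := Nat.pow_le_pow_left (Nat.le_succ Δ) _
      _ ≤ (Δ + 1) ^ (2 * m) := Nat.pow_le_pow_right (Nat.succ_pos Δ) (by omega)
      _ = ((Δ + 1) ^ 2) ^ m := by rw [pow_mul]

end Graph

section Growth

lemma geom_tail (M : ℕ) :
    ∑ m ∈ range (M + 1), (if 1 ≤ m then (1 / 2 : ℝ) ^ m else 0) ≤ 1 := by
  have h : ∀ M : ℕ, ∑ m ∈ range (M + 1), (if 1 ≤ m then (1 / 2 : ℝ) ^ m else 0)
      = 1 - 2 * (1 / 2 : ℝ) ^ (M + 1) := by
    intro M
    induction M with
    | zero => simp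
    | succ n ih =>
      rw [Finset.sum_range_succ, ih, if_pos (by omega)]
      ring
  rw [h]
  have : (0 : ℝ) ≤ 2 * (1 / 2 : ℝ) ^ (M + 1) := by positivity
  linarith

/-- If every point lies in at most `c ^ m` members of size `m` of the family `KK`, then the
members of `KK` containing a nonempty set `S` have total cost at most `p ^ |S|` at the density
`p / (2 c)`. -/
lemma growth_sum {X : Type} [Fintype X] [DecidableEq X] (KK : Finset (Finset X)) (p c : ℝ)
    (hp0 : 0 ≤ p) (hp1 : p ≤ 1) (hc : 1 ≤ c)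
    (hgrow : ∀ (x : X) (m : ℕ), ((KK.filter (fun R => x ∈ R ∧ R.card = m)).card : ℝ) ≤ c ^ m)
    (S : Finset X) (hS : S.Nonempty) :
    ∑ R ∈ KK.filter (fun R => S ⊆ R), (p / (2 * c)) ^ R.card ≤ p ^ S.card := by
  classical
  obtain ⟨x, hx⟩ := hS
  have hc0 : 0 < c := by linarith
  have hπ0 : 0 ≤ p / (2 * c) := by positivity
  have hS1 : 1 ≤ S.card := Finset.card_pos.mpr ⟨x, hx⟩
  set A := KK.filter (fun R => S ⊆ R) with hA
  have hmaps : ∀ R ∈ A, R.card ∈ range (Fintype.card X + 1) := fun R _ =>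
    Finset.mem_range.mpr (Nat.lt_succ_of_le (Finset.card_le_univ R))
  rw [← Finset.sum_fiberwise_of_maps_to hmaps (fun R => (p / (2 * c)) ^ R.card)]
  have hterm : ∀ m ∈ range (Fintype.card X + 1),
      ∑ R ∈ A.filter (fun R => R.card = m), (p / (2 * c)) ^ R.card
        ≤ p ^ S.card * (if 1 ≤ m then (1 / 2 : ℝ) ^ m else 0) := by
    intro m _
    by_cases hm : S.card ≤ m
    · have h1 : ∑ R ∈ A.filter (fun R => R.card = m), (p / (2 * c)) ^ R.card
          = ((A.filter (fun R => R.card = m)).card : ℝ) * (p / (2 * c)) ^ m := by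
        rw [Finset.sum_congr rfl (fun R hR => by rw [(Finset.mem_filter.mp hR).2]),
          Finset.sum_const, nsmul_eq_mul]
      have h2 : A.filter (fun R => R.card = m) ⊆ KK.filter (fun R => x ∈ R ∧ R.card = m) := by
        intro R hR
        obtain ⟨hRA, hRm⟩ := Finset.mem_filter.mp hR
        obtain ⟨hRK, hSR⟩ := Finset.mem_filter.mp hRA
        exact Finset.mem_filter.mpr ⟨hRK, hSR hx, hRm⟩
      have h3 : ((A.filter (fun R => R.card = m)).card : ℝ) ≤ c ^ m :=
        le_trans (by exact_mod_cast Finset.card_le_card h2) (hgrow x m)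
      have h4 : c ^ m * (p / (2 * c)) ^ m = (p / 2) ^ m := by
        rw [← mul_pow]
        congr 1
        field_simp
      have h5 : (p / 2) ^ m = p ^ m * (1 / 2 : ℝ) ^ m := by
        rw [← mul_pow]
        congr 1
        ring
      have h6 : p ^ m ≤ p ^ S.card := pow_le_pow_of_le_one hp0 hp1 hm
      rw [h1, if_pos (by omega)]
      calc ((A.filter (fun R => R.card = m)).card : ℝ) * (p / (2 * c)) ^ m
          ≤ c ^ m * (p / (2 * c)) ^ m := mul_le_mul_of_nonneg_right h3 (pow_nonneg hπ0 _)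
        _ = p ^ m * (1 / 2 : ℝ) ^ m := by rw [h4, h5]
        _ ≤ p ^ S.card * (1 / 2 : ℝ) ^ m := mul_le_mul_of_nonneg_right h6 (by positivity)
    · have hempty : A.filter (fun R => R.card = m) = ∅ := by
        rw [Finset.filter_eq_empty_iff]
        intro R hR hRm
        have := Finset.card_le_card (Finset.mem_filter.mp hR).2
        omega
      rw [hempty, Finset.sum_empty]
      split_ifs
      · positivity
      · simp
  calc ∑ m ∈ range (Fintype.card X + 1),
        ∑ R ∈ A.filter (fun R => R.card = m), (p / (2 * c)) ^ R.card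
      ≤ ∑ m ∈ range (Fintype.card X + 1),
          p ^ S.card * (if 1 ≤ m then (1 / 2 : ℝ) ^ m else 0) := Finset.sum_le_sum hterm
    _ = p ^ S.card * ∑ m ∈ range (Fintype.card X + 1),
          (if 1 ≤ m then (1 / 2 : ℝ) ^ m else 0) := by rw [Finset.mul_sum]
    _ ≤ p ^ S.card * 1 := mul_le_mul_of_nonneg_left (geom_tail _) (pow_nonneg hp0 _)
    _ = p ^ S.card := mul_one _

/-- The general criterion: the support of the fractional cover lies in a family `KK` which is
closed under unions of intersecting members and has at most `c ^ m` members of size `m` through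
each point. -/
theorem small_of_growth {X : Type} [Fintype X] [DecidableEq X]
    (F : Finset (Finset X)) (g : Finset X → ℝ) (p c : ℝ) (KK : Finset (Finset X))
    (hp0 : 0 ≤ p) (hp1 : p ≤ 1) (hc : 1 ≤ c)
    (hg : IsFracCover g F) (hcost : fracCost g p ≤ 1 / 2)
    (hunion : ∀ R ∈ KK, ∀ R' ∈ KK, ¬ Disjoint R R' → R ∪ R' ∈ KK)
    (hgrow : ∀ (x : X) (m : ℕ), ((KK.filter (fun R => x ∈ R ∧ R.card = m)).card : ℝ) ≤ c ^ m)
    (hsupp : ∀ S, g S ≠ 0 → S.Nonempty → S ∈ KK) :
    Small F (p / (2 * (24 * 3 ^ 16) * c)) := by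
  classical
  set K0 : ℝ := 24 * 3 ^ 16 with hK0
  have hK0pos : 0 < K0 := by positivity
  have hK01 : 1 ≤ K0 := by rw [hK0]; norm_num
  have hc0 : 0 < c := by linarith
  set π : ℝ := p / (2 * c) with hπ
  have hπ0 : 0 ≤ π := by positivity
  obtain ⟨hg01, hgcov⟩ := hg
  have hg0 : ∀ S, 0 ≤ g S := fun S => (hg01 S).1
  have hite0 : ∀ S T : Finset X, 0 ≤ (if S ⊆ T then g S else 0) := fun S T => by
    split_ifs
    · exact hg0 S
    · exact le_refl 0
  have hcost' : ∑ S : Finset X, g S * p ^ S.card ≤ 1 / 2 := hcost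
  have hgempty : g ∅ ≤ 1 / 2 := by
    have h1 : g ∅ * p ^ (∅ : Finset X).card ≤ ∑ S : Finset X, g S * p ^ S.card :=
      Finset.single_le_sum (f := fun S => g S * p ^ S.card)
        (fun S _ => mul_nonneg (hg0 S) (pow_nonneg hp0 _)) (Finset.mem_univ ∅)
    simp at h1
    linarith
  -- the nonempty sets of the support
  set SS : Finset (Finset X) := Finset.univ.filter (fun S => g S ≠ 0 ∧ S.Nonempty) with hSS
  have hSSmem : ∀ S, S ∈ SS ↔ g S ≠ 0 ∧ S.Nonempty := fun S => by simp [hSS]
  -- the weight of the sets of the support inside `T`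
  set W : Finset X → ℝ := fun T => ∑ S ∈ SS, if S ⊆ T then g S else 0 with hW
  have hW0 : ∀ T, 0 ≤ W T := fun T => Finset.sum_nonneg (fun S _ => hite0 S T)
  have hWmono : ∀ T T' : Finset X, T ⊆ T' → W T ≤ W T' := by
    intro T T' hTT'
    refine Finset.sum_le_sum (fun S _ => ?_)
    by_cases h : S ⊆ T
    · rw [if_pos h, if_pos (h.trans hTT')]
    · rw [if_neg h]
      exact hite0 S T'
  have hWpos : ∀ T ∈ SS, 0 < W T := by
    intro T hT
    have h1 : (if T ⊆ T then g T else 0) ≤ W T :=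
      Finset.single_le_sum (f := fun S => if S ⊆ T then g S else 0) (fun S _ => hite0 S T) hT
    rw [if_pos (Finset.Subset.refl T)] at h1
    have : 0 < g T := lt_of_le_of_ne (hg0 T) (Ne.symm ((hSSmem T).mp hT).1)
    linarith
  set W' : Finset X → ℝ := fun T => min (W T) 1 with hW'
  have hW'0 : ∀ T, 0 ≤ W' T := fun T => le_min (hW0 T) (by norm_num)
  set y : Finset X → ℝ := fun T => (π / K0) ^ T.card with hy
  have hy0 : ∀ T, 0 ≤ y T := fun T => pow_nonneg (div_nonneg hπ0 hK0pos.le) _
  -- the index set: the nonempty members of `KK` of positive weight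
  set s : Finset (Finset X) := KK.filter (fun R => R.Nonempty ∧ 0 < W R) with hs
  have hsmem : ∀ R, R ∈ s ↔ R ∈ KK ∧ R.Nonempty ∧ 0 < W R := fun R => by simp [hs]
  -- the budget
  have hbud : ∑ T ∈ s, W' T * y T ≤ 1 / K0 := by
    have h1 : ∀ T ∈ s, W' T * y T ≤ (1 / K0) * (W T * π ^ T.card) := by
      intro T hT
      have hne : 1 ≤ T.card := Finset.card_pos.mpr ((hsmem T).mp hT).2.1
      have hyT : y T ≤ π ^ T.card / K0 := by
        rw [hy]
        simp only
        rw [div_pow]
        apply div_le_div_of_nonneg_left (pow_nonneg hπ0 _) hK0pos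
        calc K0 = K0 ^ 1 := (pow_one K0).symm
          _ ≤ K0 ^ T.card := pow_le_pow_right₀ hK01 hne
      have hW'W : W' T ≤ W T := min_le_left _ _
      calc W' T * y T ≤ W T * (π ^ T.card / K0) := mul_le_mul hW'W hyT (hy0 T) (hW0 T)
        _ = (1 / K0) * (W T * π ^ T.card) := by ring
    have h2 : ∑ T ∈ KK, W T * π ^ T.card
        = ∑ S ∈ SS, g S * ∑ T ∈ KK.filter (fun T => S ⊆ T), π ^ T.card := by
      simp only [hW]
      rw [Finset.sum_congr rfl (fun T _ => Finset.sum_mul _ _ _), Finset.sum_comm]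
      refine Finset.sum_congr rfl (fun S _ => ?_)
      rw [Finset.mul_sum, Finset.sum_filter (s := KK) (p := fun T => S ⊆ T)]
      refine Finset.sum_congr rfl (fun T _ => ?_)
      split_ifs <;> ring
    have h3 : ∑ S ∈ SS, g S * ∑ T ∈ KK.filter (fun T => S ⊆ T), π ^ T.card
        ≤ ∑ S ∈ SS, g S * p ^ S.card := by
      refine Finset.sum_le_sum (fun S hS => ?_)
      exact mul_le_mul_of_nonneg_left
        (growth_sum KK p c hp0 hp1 hc hgrow S ((hSSmem S).mp hS).2) (hg0 S)
    have h4 : ∑ S ∈ SS, g S * p ^ S.card ≤ ∑ S : Finset X, g S * p ^ S.card :=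
      Finset.sum_le_sum_of_subset_of_nonneg (Finset.subset_univ _)
        (fun S _ _ => mul_nonneg (hg0 S) (pow_nonneg hp0 _))
    have h5 : ∑ T ∈ s, W T * π ^ T.card ≤ ∑ T ∈ KK, W T * π ^ T.card :=
      Finset.sum_le_sum_of_subset_of_nonneg (Finset.filter_subset _ _)
        (fun T _ _ => mul_nonneg (hW0 T) (pow_nonneg hπ0 _))
    calc ∑ T ∈ s, W' T * y T ≤ ∑ T ∈ s, (1 / K0) * (W T * π ^ T.card) :=
          Finset.sum_le_sum h1
      _ = (1 / K0) * ∑ T ∈ s, W T * π ^ T.card := by rw [Finset.mul_sum]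
      _ ≤ (1 / K0) * 1 := by
          apply mul_le_mul_of_nonneg_left _ (by positivity)
          rw [h2] at h5
          linarith
      _ = 1 / K0 := by ring
  -- the index statement
  obtain ⟨JJ, hJJs, hJJcov, hJJcost⟩ := index_cover s W' y (1 / K0) (by positivity)
    (by rw [hK0]; norm_num) (fun T hT => lt_min ((hsmem T).mp hT).2.2 (by norm_num))
    (fun T _ => min_le_right _ _) hy0 hbud
  -- the cover
  set JJd : Finset (Finset (Finset X)) :=
    JJ.filter (fun J : Finset (Finset X) => (J : Set (Finset X)).PairwiseDisjoint id) with hJJd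
  refine ⟨JJd.image (fun J : Finset (Finset X) => J.biUnion id), ?_, ?_⟩
  · intro H hH
    set D := s.filter (fun S => S ⊆ H) with hD
    set DS := SS.filter (fun S => S ⊆ H) with hDS
    set Mx := D.filter (fun T => ∀ T' ∈ D, T ⊆ T' → T' = T) with hMx
    have hMxD : Mx ⊆ D := Finset.filter_subset _ _
    have hDs : D ⊆ s := Finset.filter_subset _ _
    have hDSSS : DS ⊆ SS := Finset.filter_subset _ _
    have hsumD : 1 / 2 ≤ ∑ S ∈ DS, g S := by
      have h1 := hgcov H hH
      have hsub : insert ∅ DS ⊆ H.powerset := by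
        intro S hS
        rw [Finset.mem_powerset]
        rcases Finset.mem_insert.mp hS with h | h
        · rw [h]
          exact Finset.empty_subset _
        · exact (Finset.mem_filter.mp h).2
      have h2 : ∑ S ∈ H.powerset, g S = ∑ S ∈ insert ∅ DS, g S := by
        symm
        apply Finset.sum_subset hsub
        intro S hS hS'
        by_contra hne
        apply hS'
        have hSne : S ≠ ∅ := fun h => hS' (by rw [h]; exact Finset.mem_insert_self _ _)
        exact Finset.mem_insert_of_mem (Finset.mem_filter.mpr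
          ⟨(hSSmem S).mpr ⟨hne, Finset.nonempty_iff_ne_empty.mpr hSne⟩,
            Finset.mem_powerset.mp hS⟩)
      have hnotin : (∅ : Finset X) ∉ DS := by
        intro h
        have := ((hSSmem ∅).mp (hDSSS h)).2
        simp at this
      rw [h2, Finset.sum_insert hnotin] at h1
      linarith
    have hmax : ∀ S ∈ D, ∃ T ∈ Mx, S ⊆ T := by
      intro S hS
      have hne : (D.filter (fun T => S ⊆ T)).Nonempty :=
        ⟨S, Finset.mem_filter.mpr ⟨hS, Finset.Subset.refl S⟩⟩
      obtain ⟨T, hT, hTmax⟩ := Finset.exists_max_image _ (fun T => T.card) hne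
      have hT' := Finset.mem_filter.mp hT
      refine ⟨T, Finset.mem_filter.mpr ⟨hT'.1, ?_⟩, hT'.2⟩
      intro T' hT'D hTT'
      have := hTmax T' (Finset.mem_filter.mpr ⟨hT'D, hT'.2.trans hTT'⟩)
      exact (Finset.eq_of_subset_of_card_le hTT' this).symm
    have hDSD : ∀ S ∈ DS, S ∈ D := by
      intro S hS
      obtain ⟨hSSS, hSH⟩ := Finset.mem_filter.mp hS
      have h1 := (hSSmem S).mp hSSS
      exact Finset.mem_filter.mpr
        ⟨(hsmem S).mpr ⟨hsupp S h1.1 h1.2, h1.2, hWpos S hSSS⟩, hSH⟩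
    have hMxdisj : (Mx : Set (Finset X)).PairwiseDisjoint id := by
      intro T hT T' hT' hne
      by_contra hnd
      have h1 := Finset.mem_filter.mp (Finset.mem_coe.mp hT)
      have h2 := Finset.mem_filter.mp (Finset.mem_coe.mp hT')
      have h1D := Finset.mem_filter.mp h1.1
      have h2D := Finset.mem_filter.mp h2.1
      have h1s := (hsmem T).mp h1D.1
      have h2s := (hsmem T').mp h2D.1
      have hU : T ∪ T' ∈ D := by
        refine Finset.mem_filter.mpr ⟨(hsmem _).mpr ⟨hunion T h1s.1 T' h2s.1 hnd, ?_, ?_⟩,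
          Finset.union_subset h1D.2 h2D.2⟩
        · exact h1s.2.1.mono Finset.subset_union_left
        · exact lt_of_lt_of_le h1s.2.2 (hWmono _ _ Finset.subset_union_left)
      have e1 : T ∪ T' = T := h1.2 _ hU Finset.subset_union_left
      have e2 : T ∪ T' = T' := h2.2 _ hU Finset.subset_union_right
      exact hne (e1.symm.trans e2)
    have hMw : 1 / 2 ≤ ∑ T ∈ Mx, W' T := by
      by_cases hbig : ∃ T ∈ Mx, 1 ≤ W T
      · obtain ⟨T, hT, hT1⟩ := hbig
        have h1 : W' T ≤ ∑ T ∈ Mx, W' T :=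
          Finset.single_le_sum (f := W') (fun T _ => hW'0 T) hT
        have h2 : W' T = 1 := min_eq_right hT1
        linarith
      · push Not at hbig
        have h1 : ∑ T ∈ Mx, W' T = ∑ T ∈ Mx, W T :=
          Finset.sum_congr rfl (fun T hT => min_eq_left (hbig T hT).le)
        rw [h1]
        refine hsumD.trans ?_
        calc ∑ S ∈ DS, g S ≤ ∑ S ∈ DS, ∑ T ∈ Mx, (if S ⊆ T then g S else 0) := by
              refine Finset.sum_le_sum (fun S hS => ?_)
              obtain ⟨T, hT, hST⟩ := hmax S (hDSD S hS)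
              have h5 := Finset.single_le_sum (f := fun T => if S ⊆ T then g S else 0)
                (fun T _ => hite0 S T) hT
              rw [if_pos hST] at h5
              exact h5
          _ ≤ ∑ S ∈ SS, ∑ T ∈ Mx, (if S ⊆ T then g S else 0) :=
              Finset.sum_le_sum_of_subset_of_nonneg hDSSS
                (fun S _ _ => Finset.sum_nonneg (fun T _ => hite0 S T))
          _ = ∑ T ∈ Mx, W T := by rw [Finset.sum_comm]
    obtain ⟨J, hJ, hJM⟩ := hJJcov Mx (hMxD.trans hDs) hMw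
    have hJd : (J : Set (Finset X)).PairwiseDisjoint id :=
      hMxdisj.subset (by exact_mod_cast hJM)
    refine ⟨J.biUnion id, Finset.mem_image.mpr ⟨J, Finset.mem_filter.mpr ⟨hJ, hJd⟩, rfl⟩, ?_⟩
    intro x hx
    obtain ⟨T, hT, hxT⟩ := Finset.mem_biUnion.mp hx
    exact (Finset.mem_filter.mp (hMxD (hJM hT))).2 hxT
  · unfold cost
    have hq : p / (2 * (24 * 3 ^ 16) * c) = π / K0 := by
      rw [hπ, hK0]
      field_simp
    rw [hq]
    calc ∑ U ∈ JJd.image (fun J : Finset (Finset X) => J.biUnion id), (π / K0) ^ U.card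
        ≤ ∑ J ∈ JJd, (π / K0) ^ (J.biUnion id).card :=
          Finset.sum_image_le_of_nonneg
            (fun U _ => pow_nonneg (div_nonneg hπ0 hK0pos.le) _)
      _ = ∑ J ∈ JJd, ∏ T ∈ J, y T := by
          refine Finset.sum_congr rfl (fun J hJ => ?_)
          have hd := (Finset.mem_filter.mp hJ).2
          rw [Finset.card_biUnion hd, ← Finset.prod_pow_eq_pow_sum]
          rfl
      _ ≤ ∑ J ∈ JJ, ∏ T ∈ J, y T :=
          Finset.sum_le_sum_of_subset_of_nonneg (Finset.filter_subset _ _)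
            (fun J _ _ => Finset.prod_nonneg (fun T _ => hy0 T))
      _ ≤ 1 / 2 := hJJcost

end Growth

section Main

lemma le_q_of_small {X : Type} [Fintype X] [DecidableEq X] (F : Finset (Finset X)) (p L : ℝ)
    (hp0 : 0 ≤ p) (hp1 : p ≤ 1) (hL : 1 ≤ L) (h : Small F (p / L)) : p ≤ L * q F := by
  have hLpos : 0 < L := by linarith
  have h0 : 0 ≤ p / L := div_nonneg hp0 hLpos.le
  have h1 : p / L ≤ 1 := by
    rw [div_le_one hLpos]
    linarith
  have hle : p / L ≤ q F := by
    unfold q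
    exact le_csSup ⟨1, fun x hx => hx.2.1⟩ ⟨h0, h1, h⟩
  rw [div_le_iff₀ hLpos] at hle
  linarith

/-- **Talagrand's comparison for fractional covers with connected supports.**  There is a
universal constant `K` with the following two properties, for every finite set `X`, every
family `F` of subsets of `X`, every `p` in `[0,1]` and every fractional cover `g` of `F` of
cost at most `1/2` at `p`.

1. (General criterion.)  Let `KK` be a family of subsets of `X` that contains the union of any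
   two of its members which intersect, and such that every point of `X` lies in at most `c ^ m`
   members of `KK` of size `m` (for all `m`; `c ≥ 1`).  If every nonempty set of the support of
   `g` belongs to `KK`, then `F` is `p / (K c)`-small, and `p ≤ K c q(F)`.
2. (Graphs.)  Let `Γ` be a graph on `X` all of whose degrees are at most `Δ`.  If every nonempty
   set of the support of `g` induces a connected subgraph of `Γ`, then `F` is
   `p / (K (Δ + 1)^2)`-small, and `p ≤ K (Δ + 1)^2 q(F)`. -/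
theorem result : ∃ K : ℝ, 1 ≤ K ∧
    (∀ (X : Type) [Fintype X] [DecidableEq X] (F : Finset (Finset X)) (g : Finset X → ℝ)
      (p c : ℝ) (KK : Finset (Finset X)), 0 ≤ p → p ≤ 1 → 1 ≤ c →
      IsFracCover g F → fracCost g p ≤ 1 / 2 →
      (∀ R ∈ KK, ∀ R' ∈ KK, ¬ Disjoint R R' → R ∪ R' ∈ KK) →
      (∀ (x : X) (m : ℕ), ((KK.filter (fun R => x ∈ R ∧ R.card = m)).card : ℝ) ≤ c ^ m) →
      (∀ S : Finset X, g S ≠ 0 → S.Nonempty → S ∈ KK) →
      Small F (p / (K * c)) ∧ p ≤ K * c * q F) ∧
    (∀ (X : Type) [Fintype X] [DecidableEq X] (Γ : SimpleGraph X) [DecidableRel Γ.Adj] (Δ : ℕ)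
      (F : Finset (Finset X)) (g : Finset X → ℝ) (p : ℝ), 0 ≤ p → p ≤ 1 →
      (∀ x : X, Γ.degree x ≤ Δ) →
      IsFracCover g F → fracCost g p ≤ 1 / 2 →
      (∀ S : Finset X, g S ≠ 0 → S.Nonempty → (Γ.induce (S : Set X)).Connected) →
      Small F (p / (K * ((Δ : ℝ) + 1) ^ 2)) ∧ p ≤ K * ((Δ : ℝ) + 1) ^ 2 * q F) := by
  have hK1 : (1 : ℝ) ≤ 2 * (24 * 3 ^ 16) := by norm_num
  have key : ∀ (X : Type) [Fintype X] [DecidableEq X] (F : Finset (Finset X))
      (g : Finset X → ℝ) (p c : ℝ) (KK : Finset (Finset X)), 0 ≤ p → p ≤ 1 → 1 ≤ c →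
      IsFracCover g F → fracCost g p ≤ 1 / 2 →
      (∀ R ∈ KK, ∀ R' ∈ KK, ¬ Disjoint R R' → R ∪ R' ∈ KK) →
      (∀ (x : X) (m : ℕ), ((KK.filter (fun R => x ∈ R ∧ R.card = m)).card : ℝ) ≤ c ^ m) →
      (∀ S : Finset X, g S ≠ 0 → S.Nonempty → S ∈ KK) →
      Small F (p / (2 * (24 * 3 ^ 16) * c)) ∧ p ≤ 2 * (24 * 3 ^ 16) * c * q F := by
    intro X _ _ F g p c KK hp0 hp1 hc hg hcost hunion hgrow hsupp
    have hsmall := small_of_growth F g p c KK hp0 hp1 hc hg hcost hunion hgrow hsupp
    refine ⟨hsmall, le_q_of_small F p (2 * (24 * 3 ^ 16) * c) hp0 hp1 ?_ hsmall⟩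
    nlinarith
  refine ⟨2 * (24 * 3 ^ 16), hK1, key, ?_⟩
  intro X _ _ Γ _ Δ F g p hp0 hp1 hΔ hg hcost hconn
  classical
  set KK : Finset (Finset X) :=
    Finset.univ.filter (fun R : Finset X => R.Nonempty ∧ CutConn Γ R) with hKK
  have hKKmem : ∀ R, R ∈ KK ↔ R.Nonempty ∧ CutConn Γ R := fun R => by simp [hKK]
  have hc : (1 : ℝ) ≤ ((Δ : ℝ) + 1) ^ 2 := by
    have : (0 : ℝ) ≤ (Δ : ℝ) := Nat.cast_nonneg Δ
    nlinarith
  refine key X F g p (((Δ : ℝ) + 1) ^ 2) KK hp0 hp1 hc hg hcost ?_ ?_ ?_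
  · intro R hR R' hR' hnd
    have h1 := (hKKmem R).mp hR
    have h2 := (hKKmem R').mp hR'
    exact (hKKmem _).mpr ⟨h1.1.mono Finset.subset_union_left,
      cutConn_union Γ R R' h1.2 h2.2 hnd⟩
  · intro x m
    have h := card_cutConn Γ Δ hΔ KK (fun R hR => ((hKKmem R).mp hR).2) x m
    have h' : ((KK.filter (fun R => x ∈ R ∧ R.card = m)).card : ℝ)
        ≤ (((Δ + 1) ^ 2) ^ m : ℕ) := by exact_mod_cast h
    refine h'.trans (le_of_eq ?_)
    push_cast
    ring
  · intro S hS hne
    exact (hKKmem S).mpr ⟨hne, cutConn_of_connected Γ S (hconn S hS hne)⟩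

end Main

end Vale.Agent.Results.P034.ConnectedSupports
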