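import Mathlib
import Vale.Agent.Results.P034.RatioLowerBound

namespace Vale.Agent.Results.P034.TalagrandConstBound

open Vale.Agent.Results.P034.RatioLowerBound

/-- For every `w ≥ 1` the family `fam (Fin (3w+2)) (Fin w)` has expectation threshold at most
`1/(2w)`. -/
lemma q_le (w : ℕ) (hw : 1 ≤ w) : q (fam (Fin (3 * w + 2)) (Fin w)) ≤ 1 / (2 * (w : ℝ)) := by
  have hproper : IsProperIncreasing (fam (Fin (3 * w + 2)) (Fin w)) :=
    fam_proper (by simp) (by simpa using hw)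
  have hw' : (1 : ℝ) ≤ (w : ℝ) := by exact_mod_cast hw
  unfold q
  apply csSup_le
  · refine ⟨0, le_refl _, by norm_num, fam (Fin (3 * w + 2)) (Fin w),
      fun H hH => ⟨H, hH, subset_rfl⟩, ?_⟩
    unfold cost
    have : ∀ S ∈ fam (Fin (3 * w + 2)) (Fin w), (0 : ℝ) ^ S.card = 0 := by
      intro S hS
      have hne : S ≠ ∅ := fun h => hproper.2.1 (h ▸ hS)
      have : S.card ≠ 0 := fun h => hne (Finset.card_eq_zero.mp h)
      exact zero_pow this
    rw [Finset.sum_congr rfl this]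
    simp
  · rintro p ⟨_, _, hsmall⟩
    have := small_le (Z := Fin (3 * w + 2)) (W := Fin w) (by simp; omega) ?_ p hsmall
    · simpa using this
    · intro m hm
      simp only [Fintype.card_fin] at hm ⊢
      rw [Nat.cast_choose_two]
      have hm' : (m : ℝ) ≤ 3 * (w : ℝ) + 2 := by exact_mod_cast hm
      have hm0 : (0 : ℝ) ≤ (m : ℝ) := Nat.cast_nonneg m
      have hwpos : (0 : ℝ) < (w : ℝ) := by linarith
      push_cast
      rw [div_pow, one_pow, ← sub_nonneg]
      have key : ((3 * (w : ℝ) + 2 - m) * (1 / (2 * (w : ℝ)))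
          + (m : ℝ) * ((m : ℝ) - 1) / 2 * (1 / (2 * (w : ℝ)) ^ 2)) - 1
          = (((m : ℝ) - 2 * w) ^ 2 + (8 * w - m)) / (8 * (w : ℝ) ^ 2) := by
        field_simp
        ring
      rw [key]
      apply div_nonneg
      · nlinarith [sq_nonneg ((m : ℝ) - 2 * w)]
      · positivity

/-- For every `w ≥ 1` the family `fam (Fin (3w+2)) (Fin w)` has fractional expectation
threshold at least `1 / √(w (3w+2))`. -/
lemma qf_ge (w : ℕ) (hw : 1 ≤ w) :
    1 / Real.sqrt ((w : ℝ) * (3 * (w : ℝ) + 2)) ≤ qf (fam (Fin (3 * w + 2)) (Fin w)) := by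
  have hw' : (1 : ℝ) ≤ (w : ℝ) := by exact_mod_cast hw
  have hpos : (0 : ℝ) < (w : ℝ) * (3 * (w : ℝ) + 2) := by nlinarith
  have hsq : (1 : ℝ) ≤ Real.sqrt ((w : ℝ) * (3 * (w : ℝ) + 2)) := by
    rw [show (1 : ℝ) = Real.sqrt 1 by simp]
    apply Real.sqrt_le_sqrt
    nlinarith
  unfold qf
  apply le_csSup
  · exact ⟨1, fun p hp => hp.2.1⟩
  · refine ⟨by positivity, ?_, gHalf, gHalf_isFracCover, ?_⟩
    · rw [div_le_one (by linarith)]
      exact hsq
    · have := gHalf_cost (Z := Fin (3 * w + 2)) (W := Fin w)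
        (1 / Real.sqrt ((w : ℝ) * (3 * (w : ℝ) + 2)))
      simp only [Fintype.card_fin] at this
      refine this.trans ?_
      rw [div_pow, one_pow, Real.sq_sqrt hpos.le]
      push_cast
      have : (3 * (w : ℝ) + 2) * (w : ℝ) * (1 / ((w : ℝ) * (3 * (w : ℝ) + 2))) = 1 := by
        field_simp
      rw [this]

/-- Any universal constant `K` in Talagrand's conjecture (`q_f(F) ≤ K q(F)` for every nonempty
proper increasing family `F` on every finite set) satisfies `K ≥ 2/√3`. -/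
theorem result (K : ℝ)
    (hK : ∀ (X : Type) [Fintype X] [DecidableEq X] (F : Finset (Finset X)),
      IsProperIncreasing F → qf F ≤ K * q F) :
    2 / Real.sqrt 3 ≤ K := by
  -- for every w ≥ 1 we get K ≥ 2w / √(w(3w+2))
  have hmain : ∀ w : ℕ, 1 ≤ w →
      2 * (w : ℝ) / Real.sqrt ((w : ℝ) * (3 * (w : ℝ) + 2)) ≤ K := by
    intro w hw
    have hw' : (1 : ℝ) ≤ (w : ℝ) := by exact_mod_cast hw
    have hpos : (0 : ℝ) < (w : ℝ) * (3 * (w : ℝ) + 2) := by nlinarith
    have hsqpos : 0 < Real.sqrt ((w : ℝ) * (3 * (w : ℝ) + 2)) := Real.sqrt_pos.mpr hpos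
    have h1 := q_le w hw
    have h2 := qf_ge w hw
    have h3 := hK (Fin (3 * w + 2) ⊕ Fin w) (fam (Fin (3 * w + 2)) (Fin w))
      (fam_proper (by simp) (by simpa using hw))
    have hq0 : 0 ≤ q (fam (Fin (3 * w + 2)) (Fin w)) := by
      unfold q
      apply le_csSup
      · exact ⟨1, fun p hp => hp.2.1⟩
      · refine ⟨le_refl _, by norm_num, fam (Fin (3 * w + 2)) (Fin w),
          fun H hH => ⟨H, hH, subset_rfl⟩, ?_⟩
        unfold cost
        have hproper : IsProperIncreasing (fam (Fin (3 * w + 2)) (Fin w)) :=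
          fam_proper (by simp) (by simpa using hw)
        have : ∀ S ∈ fam (Fin (3 * w + 2)) (Fin w), (0 : ℝ) ^ S.card = 0 := by
          intro S hS
          have hne : S ≠ ∅ := fun h => hproper.2.1 (h ▸ hS)
          have : S.card ≠ 0 := fun h => hne (Finset.card_eq_zero.mp h)
          exact zero_pow this
        rw [Finset.sum_congr rfl this]
        simp
    have hqfpos : 0 < qf (fam (Fin (3 * w + 2)) (Fin w)) :=
      lt_of_lt_of_le (by positivity) h2
    have hKpos : 0 < K := by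
      by_contra hneg
      rw [not_lt] at hneg
      have : K * q (fam (Fin (3 * w + 2)) (Fin w)) ≤ 0 :=
        mul_nonpos_of_nonpos_of_nonneg hneg hq0
      linarith
    have h4 : 1 / Real.sqrt ((w : ℝ) * (3 * (w : ℝ) + 2)) ≤ K * (1 / (2 * (w : ℝ))) :=
      h2.trans (h3.trans (mul_le_mul_of_nonneg_left h1 hKpos.le))
    have hwpos : (0 : ℝ) < 2 * (w : ℝ) := by linarith
    calc 2 * (w : ℝ) / Real.sqrt ((w : ℝ) * (3 * (w : ℝ) + 2))
        = (2 * (w : ℝ)) * (1 / Real.sqrt ((w : ℝ) * (3 * (w : ℝ) + 2))) := by ring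
      _ ≤ (2 * (w : ℝ)) * (K * (1 / (2 * (w : ℝ)))) := mul_le_mul_of_nonneg_left h4 hwpos.le
      _ = K := by field_simp
  -- pass to the limit
  by_contra hlt
  rw [not_le] at hlt
  have h3pos : (0 : ℝ) < Real.sqrt 3 := Real.sqrt_pos.mpr (by norm_num)
  have hK1 := hmain 1 le_rfl
  have hKpos : 0 < K := lt_of_lt_of_le (by positivity) hK1
  -- K < 2/√3 means K^2 * 3 < 4
  have hK2 : K ^ 2 * 3 < 4 := by
    have h1 : K * Real.sqrt 3 < 2 := by
      rw [lt_div_iff₀ h3pos] at hlt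
      exact hlt
    have h2 : (K * Real.sqrt 3) ^ 2 < 2 ^ 2 :=
      pow_lt_pow_left₀ h1 (by positivity) (by norm_num)
    rw [mul_pow, Real.sq_sqrt (by norm_num : (0 : ℝ) ≤ 3)] at h2
    linarith
  obtain ⟨w, hw⟩ := exists_nat_gt (2 * K ^ 2 / (4 - K ^ 2 * 3) + 1)
  have hw1 : 1 ≤ w := by
    have : (1 : ℝ) < (w : ℝ) := by
      have : 0 ≤ 2 * K ^ 2 / (4 - K ^ 2 * 3) := by
        apply div_nonneg (by positivity) (by linarith)
      linarith
    exact_mod_cast this.le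
  have hwr : (1 : ℝ) ≤ (w : ℝ) := by exact_mod_cast hw1
  have hb := hmain w hw1
  have hpos : (0 : ℝ) < (w : ℝ) * (3 * (w : ℝ) + 2) := by nlinarith
  have hsqpos : 0 < Real.sqrt ((w : ℝ) * (3 * (w : ℝ) + 2)) := Real.sqrt_pos.mpr hpos
  rw [div_le_iff₀ hsqpos] at hb
  -- square both sides: 4 w^2 ≤ K^2 w (3w+2)
  have hb2 : (2 * (w : ℝ)) ^ 2 ≤ (K * Real.sqrt ((w : ℝ) * (3 * (w : ℝ) + 2))) ^ 2 :=
    pow_le_pow_left₀ (by positivity) hb 2
  rw [mul_pow K, Real.sq_sqrt hpos.le] at hb2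
  -- but w > 2K^2/(4-3K^2) gives 4w > K^2 (3w+2)
  have hd : 0 < 4 - K ^ 2 * 3 := by linarith
  have hw2 : 2 * K ^ 2 / (4 - K ^ 2 * 3) < (w : ℝ) := by linarith
  rw [div_lt_iff₀ hd] at hw2
  nlinarith

end Vale.Agent.Results.P034.TalagrandConstBound
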